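import Vale.Agent.P242.H990.Gauss

/-! P242, package F-CONS (helper990), part 2: the integrated forms of the kernel bounds:
(K4), (K5), (K6), (K1b). -/

set_option linter.all false

open MeasureTheory Filter Topology Set Real

namespace Vale.Agent.P242.H990

variable {M : Type*} [MetricSpace M] [MeasurableSpace M] [OpensMeasurableSpace M]
  {m : Measure M}

/-- measurability of the kernel in the second variable -/
def KMeas (m : Measure M) (p : ℝ → M → M → ℝ) : Prop :=
  ∀ s, 0 < s → ∀ x, AEStronglyMeasurable (p s x) m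

namespace KB

variable {n : ℕ} {o : M} {A : ℝ} {p : ℝ → M → M → ℝ}

/-- the time of `gauss_le` -/
theorem le_of_time (h : KB n o A p) {s s' : ℝ} (hs : 0 < s) (h1 : 4 * A ^ 2 * s ≤ s') :
    s ≤ s' := by
  have hA2 : 1 ≤ A ^ 2 := one_le_pow₀ h.one_le
  nlinarith

/-- general weight -/
theorem int_of_weight (h : KB n o A p) (hp : KMeas m p) {Γ C₀ s s' : ℝ} {x x' : M} (hs : 0 < s)
    (h1 : 4 * A ^ 2 * s ≤ s') (h2 : s' ≤ Γ * s) (h3 : s' ≤ 1 / 2) (hx : dist x x' ≤ C₀ * √s)
    {F : M → ℝ} (hF : AEStronglyMeasurable F m) (hi : Integrable (fun z => p s' x' z * F z) m)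
    {w : M → ℝ} (hw : AEStronglyMeasurable w m) {Cw : ℝ}
    (hw1 : ∀ z, |w z| ≤ Cw * exp (dist x z ^ 2 / (2 * A * s))) :
    Integrable (fun z => w z * (p s x z * F z)) m ∧
      ∫ z, |w z| * (p s x z * |F z|) ∂m ≤
        cG n A Γ C₀ * Cw * exp (2 * A * dist x o) * ∫ z, p s' x' z * |F z| ∂m := by
  have hA := h.one_le
  have hA0 := h.pos
  have hss := h.le_of_time hs h1
  have hs' : 0 < s' := hs.trans_le hss
  have hs1 : s ≤ 1 / 2 := hss.trans h3
  have hCw : 0 ≤ Cw := by
    have := (abs_nonneg _).trans (hw1 x)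
    by_contra hc
    rw [not_le] at hc
    have := Real.exp_pos (dist x x ^ 2 / (2 * A * s))
    nlinarith
  have hiabs : Integrable (fun z => p s' x' z * |F z|) m := by
    refine hi.abs.congr (Eventually.of_forall fun z => ?_)
    show |p s' x' z * F z| = p s' x' z * |F z|
    rw [abs_mul, abs_of_pos (h.p_pos hs' h3 x' z)]
  have key : ∀ z, |w z| * (p s x z * |F z|) ≤
      cG n A Γ C₀ * Cw * exp (2 * A * dist x o) * (p s' x' z * |F z|) := by
    intro z
    have g := h.exp_mul_p_le (z := z) hs h1 h2 h3 hx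
    have pz := h.p_pos hs hs1 x z
    calc |w z| * (p s x z * |F z|)
        ≤ (Cw * exp (dist x z ^ 2 / (2 * A * s))) * (p s x z * |F z|) := by
          refine mul_le_mul_of_nonneg_right (hw1 z) ?_
          positivity
      _ = Cw * (exp (dist x z ^ 2 / (2 * A * s)) * p s x z) * |F z| := by ring
      _ ≤ Cw * (cG n A Γ C₀ * exp (2 * A * dist x o) * p s' x' z) * |F z| := by gcongr
      _ = _ := by ring
  have hdom : Integrable
      (fun z => cG n A Γ C₀ * Cw * exp (2 * A * dist x o) * (p s' x' z * |F z|)) m :=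
    hiabs.const_mul _
  have e : ∀ z, ‖w z * (p s x z * F z)‖ = |w z| * (p s x z * |F z|) := by
    intro z
    rw [Real.norm_eq_abs, abs_mul, abs_mul, abs_of_pos (h.p_pos hs hs1 x z)]
  have hmeas : AEStronglyMeasurable (fun z => w z * (p s x z * F z)) m :=
    hw.mul ((hp s hs x).mul hF)
  have hint : Integrable (fun z => w z * (p s x z * F z)) m :=
    hdom.mono' hmeas (Eventually.of_forall fun z => by rw [e z]; exact key z)
  refine ⟨hint, ?_⟩
  rw [← integral_const_mul]
  refine integral_mono ?_ hdom key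
  exact hint.norm.congr (Eventually.of_forall fun z => e z)

/-- integrability at an earlier time and a nearby point -/
theorem integrable_early (h : KB n o A p) (hp : KMeas m p) {C₀ s s' : ℝ} {x x' : M} (hs : 0 < s)
    (h1 : 4 * A ^ 2 * s ≤ s') (h3 : s' ≤ 1 / 2) (hx : dist x x' ≤ C₀ * √s)
    {F : M → ℝ} (hF : AEStronglyMeasurable F m) (hi : Integrable (fun z => p s' x' z * F z) m) :
    Integrable (fun z => p s x z * F z) m := by
  have hA0 := h.pos
  have h2 : s' ≤ (s' / s) * s := by rw [div_mul_cancel₀ _ hs.ne']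
  have := (h.int_of_weight hp (Γ := s' / s) hs h1 h2 h3 hx hF hi (w := fun _ => 1)
    aestronglyMeasurable_const (Cw := 1) (fun z => by
      rw [abs_one, one_mul]
      exact Real.one_le_exp (by positivity))).1
  simpa using this

/-- (K5): Harnack inequality -/
theorem harnack (h : KB n o A p) (hp : KMeas m p) {Γ C₀ s s' : ℝ} {x x' : M} (hs : 0 < s)
    (h1 : 4 * A ^ 2 * s ≤ s') (h2 : s' ≤ Γ * s) (h3 : s' ≤ 1 / 2) (hx : dist x x' ≤ C₀ * √s)
    {F : M → ℝ} (hF : AEStronglyMeasurable F m) (hi : Integrable (fun z => p s' x' z * F z) m) :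
    ∫ z, p s x z * |F z| ∂m ≤
      cG n A Γ C₀ * exp (2 * A * dist x o) * ∫ z, p s' x' z * |F z| ∂m := by
  have hA0 := h.pos
  have := (h.int_of_weight hp (Γ := Γ) hs h1 h2 h3 hx hF hi (w := fun _ => 1)
    aestronglyMeasurable_const (Cw := 1) (fun z => by
      rw [abs_one, one_mul]
      exact Real.one_le_exp (by positivity))).2
  simpa using this

/-- (K4): polynomial and exponential weights -/
theorem weight (h : KB n o A p) (hp : KMeas m p) {Γ C₀ s s' : ℝ} {x x' : M} (hs : 0 < s)
    (h1 : 4 * A ^ 2 * s ≤ s') (h2 : s' ≤ Γ * s) (h3 : s' ≤ 1 / 2) (hx : dist x x' ≤ C₀ * √s)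
    {F : M → ℝ} (hF : AEStronglyMeasurable F m) (hi : Integrable (fun z => p s' x' z * F z) m)
    (N : ℕ) (c : ℝ) :
    Integrable (fun z => (1 + dist x z / √s) ^ N * exp (c * dist x z) * (p s x z * F z)) m ∧
      ∫ z, (1 + dist x z / √s) ^ N * exp (c * dist x z) * (p s x z * |F z|) ∂m ≤
        cG n A Γ C₀ * (cW A N * exp (A * c ^ 2)) * exp (2 * A * dist x o) *
          ∫ z, p s' x' z * |F z| ∂m := by
  have hA0 := h.pos
  have hss := h.le_of_time hs h1
  have hs1 : s ≤ 1 := (hss.trans h3).trans (by norm_num)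
  have w0 : ∀ z, 0 ≤ (1 + dist x z / √s) ^ N * exp (c * dist x z) := fun z => by positivity
  have hw : AEStronglyMeasurable (fun z => (1 + dist x z / √s) ^ N * exp (c * dist x z)) m := by
    have : Continuous (fun z => (1 + dist x z / √s) ^ N * exp (c * dist x z)) := by fun_prop
    exact this.aestronglyMeasurable
  have := h.int_of_weight hp (Γ := Γ) hs h1 h2 h3 hx hF hi (w := fun z => (1 + dist x z / √s) ^ N *
    exp (c * dist x z)) hw (Cw := cW A N * exp (A * c ^ 2)) (fun z => by
      rw [abs_of_nonneg (w0 z)]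
      exact weight_le N hA0 hs hs1 dist_nonneg)
  refine ⟨this.1, ?_⟩
  refine le_trans (le_of_eq ?_) this.2
  refine integral_congr_ae (Eventually.of_forall fun z => ?_)
  simp only
  rw [abs_of_nonneg (w0 z)]

/-- (K6): tails -/
theorem tail (h : KB n o A p) (hp : KMeas m p) {Γ C₀ s s' : ℝ} {x x' : M} (hs : 0 < s)
    (h1 : 4 * A ^ 2 * s ≤ s') (h2 : s' ≤ Γ * s) (h3 : s' ≤ 1 / 2) (hx : dist x x' ≤ C₀ * √s)
    {F : M → ℝ} (hF : AEStronglyMeasurable F m) (hi : Integrable (fun z => p s' x' z * F z) m)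
    {R : ℝ} (hR : 0 ≤ R) :
    ∫ z in {z | R ≤ dist x z}, p s x z * |F z| ∂m ≤
        cG n A Γ C₀ * exp (-(R ^ 2 / (2 * A * s))) * exp (2 * A * dist x o) *
          ∫ z, p s' x' z * |F z| ∂m := by
  have hA0 := h.pos
  have hE : MeasurableSet {z | R ≤ dist x z} :=
    measurableSet_le measurable_const (continuous_const.dist continuous_id).measurable
  have := h.int_of_weight hp (Γ := Γ) hs h1 h2 h3 hx hF hi
    (w := {z | R ≤ dist x z}.indicator fun _ => 1)
    (aestronglyMeasurable_const.indicator hE) (Cw := exp (-(R ^ 2 / (2 * A * s)))) (fun z => by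
      rw [← Real.exp_add]
      by_cases hz : z ∈ {z | R ≤ dist x z}
      · rw [indicator_of_mem hz, abs_one]
        apply Real.one_le_exp
        have : R ^ 2 / (2 * A * s) ≤ dist x z ^ 2 / (2 * A * s) := by
          have : R ≤ dist x z := hz
          gcongr
        linarith
      · rw [indicator_of_notMem hz, abs_zero]
        exact (Real.exp_pos _).le)
  refine le_trans (le_of_eq ?_) this.2
  rw [← integral_indicator hE]
  refine integral_congr_ae (Eventually.of_forall fun z => ?_)
  by_cases hz : z ∈ {z | R ≤ dist x z}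
  · simp only [indicator_of_mem hz]
    rw [abs_one, one_mul]
  · simp only [indicator_of_notMem hz]
    rw [abs_zero, zero_mul]

/-- (K1b): Lipschitz bound, with an exponential weight -/
theorem lip_int (h : KB n o A p) (hp : KMeas m p) {Γ C₀ s s' : ℝ} {x x' y : M} (hs : 0 < s)
    (h1 : 4 * A ^ 2 * s ≤ s') (h2 : s' ≤ Γ * s) (h3 : s' ≤ 1 / 2) (hx : dist x y ≤ C₀ * √s)
    (hxx : dist x x' ≤ √s)
    {F : M → ℝ} (hF : AEStronglyMeasurable F m) (hi : Integrable (fun z => p s' y z * F z) m) :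
    |∫ z, p s x z * F z ∂m - ∫ z, p s x' z * F z ∂m| ≤
      cG n A Γ C₀ * exp (2 * A * dist x o) * (dist x x' / √s) * ∫ z, p s' y z * |F z| ∂m := by
  have hA := h.one_le
  have hA0 := h.pos
  have hss := h.le_of_time hs h1
  have hs' : 0 < s' := hs.trans_le hss
  have hs1 : s ≤ 1 / 2 := hss.trans h3
  have i1 := h.integrable_early hp hs h1 h3 hx hF hi
  have hx' : dist x' y ≤ (C₀ + 1) * √s := by
    calc dist x' y ≤ dist x' x + dist x y := dist_triangle _ _ _
      _ ≤ √s + C₀ * √s := by rw [dist_comm x' x]; exact add_le_add hxx hx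
      _ = (C₀ + 1) * √s := by ring
  have i2 := h.integrable_early hp hs h1 h3 hx' hF hi
  have hiabs : Integrable (fun z => p s' y z * |F z|) m := by
    refine hi.abs.congr (Eventually.of_forall fun z => ?_)
    show |p s' y z * F z| = p s' y z * |F z|
    rw [abs_mul, abs_of_pos (h.p_pos hs' h3 y z)]
  rw [← integral_sub i1 i2, ← integral_const_mul]
  refine (abs_integral_le_integral_abs).trans ?_
  refine integral_mono (i1.sub i2).abs (hiabs.const_mul _) fun z => ?_
  have g := h.exp_mul_lip_le (z := z) hs h1 h2 h3 hx hxx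
  have g1 : 1 ≤ exp (dist x z ^ 2 / (2 * A * s)) := Real.one_le_exp (by positivity)
  simp only
  have e : p s x z * F z - p s x' z * F z = (p s x z - p s x' z) * F z := by ring
  rw [e, abs_mul]
  have h0 : |p s x z - p s x' z| ≤ exp (dist x z ^ 2 / (2 * A * s)) * |p s x z - p s x' z| :=
    le_mul_of_one_le_left (abs_nonneg _) g1
  calc |p s x z - p s x' z| * |F z|
      ≤ (cG n A Γ C₀ * exp (2 * A * dist x o) * (dist x x' / √s) * p s' y z) * |F z| :=
        mul_le_mul_of_nonneg_right (h0.trans g) (abs_nonneg _)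
    _ = _ := by ring

/-- (K1b) for points at distance at most `C₁ √s` -/
theorem lip_int' (h : KB n o A p) (hp : KMeas m p) {Γ C₀ C₁ s s' : ℝ} {x x' y : M} (hs : 0 < s)
    (h1 : 4 * A ^ 2 * s ≤ s') (h2 : s' ≤ Γ * s) (h3 : s' ≤ 1 / 2) (hx : dist x y ≤ C₀ * √s)
    (hxx : dist x x' ≤ C₁ * √s) (hΓ : 0 < Γ) (hC₀ : 0 ≤ C₀) (hC₁ : 0 ≤ C₁)
    {F : M → ℝ} (hF : AEStronglyMeasurable F m) (hi : Integrable (fun z => p s' y z * F z) m) :
    |∫ z, p s x z * F z ∂m - ∫ z, p s x' z * F z ∂m| ≤
      2 * exp (2 * A * C₁) * cG n A Γ (C₀ + C₁) * exp (2 * A * dist x o) * (dist x x' / √s) *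
        ∫ z, p s' y z * |F z| ∂m := by
  have hA := h.one_le
  have hA0 := h.pos
  have hss := h.le_of_time hs h1
  have hs' : 0 < s' := hs.trans_le hss
  have hs1 : s ≤ 1 / 2 := hss.trans h3
  have q0 : 0 < √s := Real.sqrt_pos.2 hs
  have q1 : √s ≤ 1 := by simpa using Real.sqrt_le_sqrt (show s ≤ 1 by linarith)
  have J0 : 0 ≤ ∫ z, p s' y z * |F z| ∂m :=
    integral_nonneg fun z => mul_nonneg (h.p_pos hs' h3 y z).le (abs_nonneg _)
  have c0 : cG n A Γ C₀ ≤ cG n A Γ (C₀ + C₁) := by
    unfold cG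
    gcongr
    · linarith
    · linarith
  have c1 : 0 < cG n A Γ (C₀ + C₁) := cG_pos hA hΓ
  have e1 : 1 ≤ exp (2 * A * C₁) := Real.one_le_exp (by positivity)
  rcases le_or_gt (dist x x') (√s) with hle | hgt
  · refine (h.lip_int hp hs h1 h2 h3 hx hle hF hi).trans ?_
    have r0 : 0 ≤ dist x x' / √s := by positivity
    have : cG n A Γ C₀ ≤ 2 * exp (2 * A * C₁) * cG n A Γ (C₀ + C₁) := by nlinarith
    gcongr
  · have hx0 : dist x y ≤ (C₀ + C₁) * √s := hx.trans (by gcongr; linarith)
    have hx' : dist x' y ≤ (C₀ + C₁) * √s := by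
      calc dist x' y ≤ dist x' x + dist x y := dist_triangle _ _ _
        _ ≤ C₁ * √s + C₀ * √s := by rw [dist_comm x' x]; exact add_le_add hxx hx
        _ = (C₀ + C₁) * √s := by ring
    have a1 := h.harnack hp hs h1 h2 h3 hx0 hF hi
    have a2 := h.harnack hp hs h1 h2 h3 hx' hF hi
    have b1 : |∫ z, p s x z * F z ∂m| ≤ ∫ z, p s x z * |F z| ∂m := by
      refine (abs_integral_le_integral_abs).trans (le_of_eq ?_)
      refine integral_congr_ae (Eventually.of_forall fun z => ?_)
      simp only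
      rw [abs_mul, abs_of_pos (h.p_pos hs hs1 x z)]
    have b2 : |∫ z, p s x' z * F z ∂m| ≤ ∫ z, p s x' z * |F z| ∂m := by
      refine (abs_integral_le_integral_abs).trans (le_of_eq ?_)
      refine integral_congr_ae (Eventually.of_forall fun z => ?_)
      simp only
      rw [abs_mul, abs_of_pos (h.p_pos hs hs1 x' z)]
    have hd : dist x' o ≤ C₁ + dist x o := by
      calc dist x' o ≤ dist x' x + dist x o := dist_triangle _ _ _
        _ ≤ C₁ * √s + dist x o := by rw [dist_comm x' x]; linarith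
        _ ≤ C₁ + dist x o := by nlinarith
    have e2 : exp (2 * A * dist x' o) ≤ exp (2 * A * C₁) * exp (2 * A * dist x o) := by
      rw [← Real.exp_add]
      apply Real.exp_le_exp.2
      nlinarith
    have r1 : 1 ≤ dist x x' / √s := by
      rw [le_div_iff₀ q0]; linarith
    set J := ∫ z, p s' y z * |F z| ∂m with hJ
    set E := exp (2 * A * dist x o) with hE
    have E0 : 0 < E := Real.exp_pos _
    set c := cG n A Γ (C₀ + C₁) with hc
    set g := exp (2 * A * C₁) with hg
    calc |∫ z, p s x z * F z ∂m - ∫ z, p s x' z * F z ∂m|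
        ≤ |∫ z, p s x z * F z ∂m| + |∫ z, p s x' z * F z ∂m| := abs_sub _ _
      _ ≤ c * E * J + c * (g * E) * J := by
          refine add_le_add (b1.trans a1) (b2.trans (a2.trans ?_))
          gcongr
      _ = (1 + g) * (c * E * J) := by ring
      _ ≤ (2 * g) * (c * E * J) := by
          refine mul_le_mul_of_nonneg_right (by linarith) (by positivity)
      _ ≤ (2 * g) * (c * E * J) * (dist x x' / √s) := le_mul_of_one_le_right (by positivity) r1
      _ = _ := by ring

end KB

end Vale.Agent.P242.H990
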