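import Vale.Agent.P242.H520.KerDefs
import Vale.Agent.P242.H990.Int
import Vale.Agent.P233.H183.Unit
import Vale.Agent.P233.H103.Semi5

/-! P242, package F-CONS (helper990), part 3: the class `ph s x` of the heat kernel with centre `x`,
and its basic properties. -/

set_option linter.all false

open MeasureTheory Filter Topology Set
open scoped ENNReal NNReal

universe u

namespace Vale.Agent.P242.H990

open Vale.Agent.P233 Vale.Agent.P242.H520

variable {M : Type u} [MetricSpace M] [MeasurableSpace M] {m : Measure M} {p : ℝ → M → M → ℝ}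

/-- the heat kernel with centre `x`, as a class of functions -/
noncomputable def ph (m : Measure M) (p : ℝ → M → M → ℝ) (s : ℝ) (x : M) : M →ₘ[m] ℝ :=
  cl m (p s x)

section basic

variable (hp : Ker0 m p) {s t : ℝ} {x : M} {F G : M →ₘ[m] ℝ}
include hp

theorem ph_meas (hs : 0 < s) (x : M) : AEStronglyMeasurable (p s x) m :=
  (hp.int s hs x).aestronglyMeasurable

theorem kmeas : KMeas m p := fun _ hs x => ph_meas hp hs x

theorem ph_ae (hs : 0 < s) (x : M) : ⇑(ph m p s x) =ᵐ[m] p s x :=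
  H183.cl_ae (ph_meas hp hs x)

theorem ph_nonneg (hs : 0 < s) (x : M) : 0 ≤ ph m p s x := by
  rw [nonneg_iff_ae]
  filter_upwards [ph_ae hp hs x] with z hz
  rw [hz]
  exact hp.nonneg s hs x z

theorem ph_mem2 (hs : 0 < s) (x : M) : MemLp (ph m p s x) 2 m :=
  (memLp_congr_ae (ph_ae hp hs x)).2 (hp.mem2 s hs x)

theorem ph_mem1 (hs : 0 < s) (x : M) : MemLp (ph m p s x) 1 m :=
  (memLp_congr_ae (ph_ae hp hs x)).2 (memLp_one_iff_integrable.2 (hp.int s hs x))

theorem I_ph (hs : 0 < s) (x : M) : I (ph m p s x) = 1 := by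
  unfold I
  rw [integral_congr_ae (ph_ae hp hs x), hp.mass s hs x]

theorem I_ph_mul (hs : 0 < s) (x : M) (F : M →ₘ[m] ℝ) : I (ph m p s x * F) = pt m p s F x := by
  unfold I pt
  refine integral_congr_ae ?_
  filter_upwards [mul_ae (ph m p s x) F, ph_ae hp hs x] with z h1 h2
  rw [h1, h2]

theorem int_ph_mul (hs : 0 < s) (x : M) {F : M →ₘ[m] ℝ} :
    MemLp (ph m p s x * F : M →ₘ[m] ℝ) 1 m ↔ Integrable (fun z => p s x z * F z) m := by
  rw [memLp_one_iff_integrable]
  refine integrable_congr ?_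
  filter_upwards [mul_ae (ph m p s x) F, ph_ae hp hs x] with z h1 h2
  rw [h1, h2]

theorem pt_int (hs : 0 < s) (x : M) {F : M → ℝ} (hF : MemLp F 2 m) :
    Integrable (fun z => p s x z * F z) m :=
  memLp_one_iff_integrable.1 (MemLp.mul hF (hp.mem2 s hs x))

/-- bounded functions are integrable -/
theorem pt_int_top (hs : 0 < s) (x : M) {F : M → ℝ} (hF : MemLp F ∞ m) :
    Integrable (fun z => p s x z * F z) m :=
  memLp_one_iff_integrable.1 (MemLp.mul hF (memLp_one_iff_integrable.2 (hp.int s hs x)))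

theorem pt_nonneg (hs : 0 < s) (x : M) {F : M → ℝ} (hF : ∀ᵐ z ∂m, 0 ≤ F z) :
    0 ≤ pt m p s F x := by
  refine integral_nonneg_of_ae ?_
  filter_upwards [hF] with z hz
  exact mul_nonneg (hp.nonneg s hs x z) hz

theorem pt_mono (hs : 0 < s) (x : M) {F G : M → ℝ} (hF : Integrable (fun z => p s x z * F z) m)
    (hG : Integrable (fun z => p s x z * G z) m) (h : ∀ᵐ z ∂m, F z ≤ G z) :
    pt m p s F x ≤ pt m p s G x := by
  refine integral_mono_ae hF hG ?_
  filter_upwards [h] with z hz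
  exact mul_le_mul_of_nonneg_left hz (hp.nonneg s hs x z)

theorem pt_const (hs : 0 < s) (x : M) (c : ℝ) : pt m p s (fun _ => c) x = c := by
  unfold pt
  rw [integral_mul_const, hp.mass s hs x, one_mul]

theorem abs_pt_le (hs : 0 < s) (x : M) (F : M → ℝ) : |pt m p s F x| ≤ pt m p s (fun z => |F z|) x := by
  unfold pt
  refine (abs_integral_le_integral_abs).trans (le_of_eq ?_)
  refine integral_congr_ae (Eventually.of_forall fun z => ?_)
  simp only
  rw [abs_mul, abs_of_nonneg (hp.nonneg s hs x z)]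

theorem pt_bdd (hs : 0 < s) (x : M) {F : M → ℝ} (hFm : AEStronglyMeasurable F m) {c : ℝ}
    (hF : ∀ᵐ z ∂m, |F z| ≤ c) : |pt m p s F x| ≤ c := by
  refine (abs_pt_le hp hs x F).trans ?_
  rw [← pt_const hp hs x c]
  have h1 : MemLp (fun z => |F z|) ∞ m :=
    memLp_top_of_bound (by simpa using hFm.norm) c (by
      filter_upwards [hF] with z hz
      rw [Real.norm_eq_abs, abs_abs]; exact hz)
  exact pt_mono hp hs x (pt_int_top hp hs x h1)
    (pt_int_top hp hs x (memLp_top_const c)) hF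

/-- Jensen / Cauchy-Schwarz for products -/
theorem pt_cs (hs : 0 < s) (x : M) {F G : M → ℝ} (hFm : AEStronglyMeasurable F m)
    (hGm : AEStronglyMeasurable G m)
    (hF : Integrable (fun z => p s x z * F z ^ 2) m)
    (hG : Integrable (fun z => p s x z * G z ^ 2) m) :
    Integrable (fun z => p s x z * (F z * G z)) m ∧
      pt m p s (fun z => F z * G z) x ^ 2 ≤
        pt m p s (fun z => F z ^ 2) x * pt m p s (fun z => G z ^ 2) x := by
  have hpm := ph_meas hp hs x
  have hq : AEStronglyMeasurable (fun z => √(p s x z)) m :=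
    Real.continuous_sqrt.comp_aestronglyMeasurable hpm
  have e : ∀ z, √(p s x z) ^ 2 = p s x z := fun z => Real.sq_sqrt (hp.nonneg s hs x z)
  have m1 : MemLp (fun z => √(p s x z) * F z) 2 m := by
    have hm : AEStronglyMeasurable (fun z => √(p s x z) * F z) m := hq.mul hFm
    rw [memLp_two_iff_integrable_sq hm]
    refine hF.congr (Eventually.of_forall fun z => ?_)
    simp only [mul_pow, e]
  have m2 : MemLp (fun z => √(p s x z) * G z) 2 m := by
    have hm : AEStronglyMeasurable (fun z => √(p s x z) * G z) m := hq.mul hGm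
    rw [memLp_two_iff_integrable_sq hm]
    refine hG.congr (Eventually.of_forall fun z => ?_)
    simp only [mul_pow, e]
  have e2 : ∀ z, (√(p s x z) * F z) * (√(p s x z) * G z) = p s x z * (F z * G z) := by
    intro z
    have := e z
    calc (√(p s x z) * F z) * (√(p s x z) * G z) = √(p s x z) ^ 2 * (F z * G z) := by ring
      _ = _ := by rw [this]
  have c1 : MemLp (AEEqFun.mk _ m1.1 : M →ₘ[m] ℝ) 2 m := (memLp_congr_ae (AEEqFun.coeFn_mk _ m1.1)).2 m1
  have c2 : MemLp (AEEqFun.mk _ m2.1 : M →ₘ[m] ℝ) 2 m := (memLp_congr_ae (AEEqFun.coeFn_mk _ m2.1)).2 m2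
  refine ⟨?_, ?_⟩
  · have := memLp_one_iff_integrable.1 (MemLp.mul m2 m1 : MemLp _ 1 m)
    refine this.congr (Eventually.of_forall fun z => ?_)
    exact e2 z
  · have h := I_cs c1 c2
    have i1 : I (AEEqFun.mk _ m1.1 * AEEqFun.mk _ m2.1 : M →ₘ[m] ℝ) =
        pt m p s (fun z => F z * G z) x := by
      unfold I pt
      refine integral_congr_ae ?_
      filter_upwards [mul_ae (AEEqFun.mk _ m1.1 : M →ₘ[m] ℝ) (AEEqFun.mk _ m2.1),
        AEEqFun.coeFn_mk _ m1.1, AEEqFun.coeFn_mk _ m2.1] with z a1 a2 a3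
      rw [a1, a2, a3]
      exact e2 z
    have i2 : I ((AEEqFun.mk _ m1.1 : M →ₘ[m] ℝ) ^ 2) = pt m p s (fun z => F z ^ 2) x := by
      unfold I pt
      refine integral_congr_ae ?_
      filter_upwards [sq_ae (AEEqFun.mk _ m1.1 : M →ₘ[m] ℝ), AEEqFun.coeFn_mk _ m1.1] with z a1 a2
      rw [a1, a2, mul_pow, e]
    have i3 : I ((AEEqFun.mk _ m2.1 : M →ₘ[m] ℝ) ^ 2) = pt m p s (fun z => G z ^ 2) x := by
      unfold I pt
      refine integral_congr_ae ?_
      filter_upwards [sq_ae (AEEqFun.mk _ m2.1 : M →ₘ[m] ℝ), AEEqFun.coeFn_mk _ m2.1] with z a1 a2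
      rw [a1, a2, mul_pow, e]
    rwa [i1, i2, i3] at h

theorem pt_jensen (hs : 0 < s) (x : M) {F : M → ℝ} (hFm : AEStronglyMeasurable F m)
    (hF : Integrable (fun z => p s x z * F z ^ 2) m) :
    pt m p s F x ^ 2 ≤ pt m p s (fun z => F z ^ 2) x := by
  have h := (pt_cs hp hs x hFm (aestronglyMeasurable_const (b := (1 : ℝ))) hF (by
    simpa using hp.int s hs x)).2
  simpa [pt_const hp hs x] using h

theorem pt_congr {F G : M → ℝ} (h : F =ᵐ[m] G) (s : ℝ) (x : M) : pt m p s F x = pt m p s G x := by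
  unfold pt
  refine integral_congr_ae ?_
  filter_upwards [h] with z hz
  rw [hz]

end basic

section ext

variable [BorelSpace M] [m.IsOpenPosMeasure]

/-- a.e. inequality of continuous functions -/
theorem le_of_ae_le {u v : M → ℝ} (hu : Continuous u) (hv : Continuous v)
    (h : ∀ᵐ x ∂m, u x ≤ v x) (x : M) : u x ≤ v x := by
  by_contra hc
  rw [not_le] at hc
  have ho : IsOpen {y | v y < u y} := isOpen_lt hv hu
  have hpos : 0 < m {y | v y < u y} := ho.measure_pos m ⟨x, hc⟩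
  have hz : m {y | v y < u y} = 0 := by
    have : {y | v y < u y} = {y | ¬ (u y ≤ v y)} := by ext y; simp
    rw [this]
    exact h
  exact hpos.ne' hz

end ext

section semi

variable (hC : IsDir (sob m)) (hp : Ker0 m p) {s t : ℝ} {x : M} {F G : M →ₘ[m] ℝ}
include hC hp

/-- `P_t p_s(x,·) = p_{s+t}(x,·)` -/
theorem P_ph (ht : 0 ≤ t) (hs : 0 < s) (x : M) : (sob m).P t (ph m p s x) = ph m p (s + t) x := by
  rcases ht.eq_or_lt with rfl | ht
  · rw [add_zero]
    exact hC.P_zero_time (ph_mem2 hp hs x)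
  · rw [eq_iff_ae]
    filter_upwards [hp.rep t ht _ (ph_mem2 hp hs x), ph_ae hp (by linarith : 0 < s + t) x]
      with z h1 h2
    rw [h1, h2, add_comm, hp.symm (t + s) (by linarith) x z, hp.semi t s ht hs z x]
    rw [pt_congr hp (ph_ae hp hs x)]
    unfold pt
    refine integral_congr_ae (Eventually.of_forall fun w => ?_)
    simp only
    rw [hp.symm s hs x w]

theorem ph_mem (hs : 0 < s) (x : M) : ph m p s x ∈ (sob m).W := by
  have h := P_ph hC hp (s := s / 2) (t := s / 2) (by linarith) (by linarith) x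
  rw [add_halves] at h
  rw [← h]
  exact hC.P_mem (by linarith) (ph_mem2 hp (by linarith) x)

theorem ph_isLap (hs : 0 < s) (x : M) :
    (sob m).IsLap (ph m p s x) ((sob m).lap (ph m p s x)) := by
  have h := P_ph hC hp (s := s / 2) (t := s / 2) (by linarith) (by linarith) x
  rw [add_halves] at h
  rw [← h]
  exact hC.P_isLap (by linarith) (ph_mem2 hp (by linarith) x)

theorem ph_lap_mem2 (hs : 0 < s) (x : M) : MemLp ((sob m).lap (ph m p s x)) 2 m :=
  (ph_isLap hC hp hs x).2.1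

/-- `P_t Δ p_s(x,·) = Δ p_{s+t}(x,·)` -/
theorem P_lap_ph (ht : 0 ≤ t) (hs : 0 < s) (x : M) :
    (sob m).P t ((sob m).lap (ph m p s x)) = (sob m).lap (ph m p (s + t) x) := by
  rw [← P_ph hC hp ht hs x]
  exact (hC.P_lap_of t (ph_isLap hC hp hs x)).symm

theorem ph_lap_mem (hs : 0 < s) (x : M) : (sob m).lap (ph m p s x) ∈ (sob m).W := by
  have h := P_lap_ph hC hp (s := s / 2) (t := s / 2) (by linarith) (by linarith) x
  rw [add_halves] at h
  rw [← h]
  exact hC.P_mem (by linarith) (ph_lap_mem2 hC hp (by linarith) x)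

/-- `∫ p_s(x,·) P_t F = ∫ p_{s+t}(x,·) F` -/
theorem I_ph_P (ht : 0 ≤ t) (hs : 0 < s) (x : M) (hF : MemLp F 2 m) :
    I (ph m p s x * (sob m).P t F) = I (ph m p (s + t) x * F) := by
  rw [← P_ph hC hp ht hs x]
  exact (hC.P_symm t (ph_mem2 hp hs x) hF).symm

theorem I_lap_ph_P (ht : 0 ≤ t) (hs : 0 < s) (x : M) (hF : MemLp F 2 m) :
    I ((sob m).lap (ph m p s x) * (sob m).P t F) = I ((sob m).lap (ph m p (s + t) x) * F) := by
  rw [← P_lap_ph hC hp ht hs x]
  exact (hC.P_symm t (ph_lap_mem2 hC hp hs x) hF).symm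

/-- `∫ p_s(x,·) ΔF = ∫ Δp_s(x,·) F` -/
theorem I_ph_lap {F H : M →ₘ[m] ℝ} (hs : 0 < s) (x : M) (hF : (sob m).IsLap F H) :
    I (ph m p s x * H) = I ((sob m).lap (ph m p s x) * F) := by
  have h1 : I ((sob m).Γ F (ph m p s x)) = -I (H * ph m p s x) :=
    hF.2.2 _ (ph_mem hC hp hs x)
  have h2 : I ((sob m).Γ (ph m p s x) F) = -I ((sob m).lap (ph m p s x) * F) :=
    (ph_isLap hC hp hs x).2.2 _ hF.1
  rw [hC.symm _ hF.1 _ (ph_mem hC hp hs x), h2] at h1
  rw [mul_comm (ph m p s x) H]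
  linarith

/-- `∫ Γ(p_s(x,·),F) = -∫ Δp_s(x,·) F` -/
theorem I_Γ_ph (hs : 0 < s) (x : M) (hF : F ∈ (sob m).W) :
    I ((sob m).Γ (ph m p s x) F) = -I ((sob m).lap (ph m p s x) * F) :=
  (ph_isLap hC hp hs x).2.2 _ hF

theorem pt_P (ht : 0 ≤ t) (hs : 0 < s) (x : M) (hF : MemLp F 2 m) :
    pt m p s ((sob m).P t F) x = pt m p (s + t) F x := by
  rw [← I_ph_mul hp hs, ← I_ph_mul hp (by linarith : 0 < s + t), I_ph_P hC hp ht hs x hF]

/-- pointwise semigroup law -/
theorem pt_pt (ht : 0 < t) (hs : 0 < s) (x : M) {F : M → ℝ} (hF : MemLp F 2 m) :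
    pt m p s (pt m p t F) x = pt m p (s + t) F x := by
  have h0 : ⇑(AEEqFun.mk F hF.1 : M →ₘ[m] ℝ) =ᵐ[m] F := AEEqFun.coeFn_mk F hF.1
  have hF' : MemLp (AEEqFun.mk F hF.1 : M →ₘ[m] ℝ) 2 m := (memLp_congr_ae h0).2 hF
  have h1 := pt_P hC hp ht.le hs x hF'
  rw [pt_congr hp (hp.rep t ht _ hF')] at h1
  rw [pt_congr hp h0 (s + t) x] at h1
  rw [← h1]
  congr 1
  ext y
  exact (pt_congr hp h0 t y).symm

/-- derivative in time -/
theorem hasDerivAt_ph (hs : 0 < s) (x : M) (hF : MemLp F 2 m) :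
    HasDerivAt (fun s => I (ph m p s x * F)) (I ((sob m).lap (ph m p s x) * F)) s := by
  have h2 : 0 < s / 2 := by linarith
  have h := hC.P_hasDeriv_I h2 (ph_isLap hC hp h2 x) hF
  rw [P_lap_ph hC hp h2.le h2 x, add_halves] at h
  have h3 : HasDerivAt (fun r : ℝ => r - s / 2) 1 s := (hasDerivAt_id s).sub_const _
  have h4 : s / 2 = s - s / 2 := by ring
  rw [h4] at h
  have h5 := HasDerivAt.comp s h h3
  rw [mul_one] at h5
  refine h5.congr_of_eventuallyEq ?_
  filter_upwards [lt_mem_nhds (show s / 2 < s by linarith)] with r hr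
  simp only [Function.comp]
  rw [← h4, P_ph hC hp (by linarith) h2 x]
  congr 3
  ring

end semi

section gamma

variable (hC : IsGamma (sob m)) {κ : ℝ} (hB : (sob m).BEi κ) (hp : Ker0 m p)
  {n : ℕ} {o : M} {A : ℝ} (hk : KB n o A p) {s t : ℝ}

include hC hp hk in
/-- the kernel is bounded in the second variable -/
theorem ph_top (hs : 0 < s) (x : M) : MemLp (ph m p s x) ∞ m := by
  have hA := hk.pos
  have h1 : ∀ s, 0 < s → s ≤ 1 / 2 → MemLp (ph m p s x) ∞ m := by
    intro s hs hs1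
    rw [mem_top_iff]
    refine ⟨A * Real.exp (A * dist x o) * (√s ^ n)⁻¹, ?_⟩
    filter_upwards [ph_ae hp hs x] with z hz
    rw [hz, abs_of_nonneg (hp.nonneg s hs x z)]
    refine (hk.upper s hs hs1 x z).trans ?_
    refine mul_le_of_le_one_right (by positivity) ?_
    rw [Real.exp_le_one_iff]
    have : 0 ≤ dist x z ^ 2 / (A * s) := by positivity
    linarith
  rcases le_or_gt s (1 / 2) with h | h
  · exact h1 s hs h
  · have e := P_ph hC.toIsDir hp (s := 1 / 2) (t := s - 1 / 2) (by linarith) (by norm_num) x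
    rw [add_sub_cancel] at e
    rw [← e]
    exact hC.toIsDir.P_memTop (by linarith) (ph_mem2 hp (by norm_num) x) (h1 _ (by norm_num) le_rfl)

include hC hp hk in
theorem ph_A (hs : 0 < s) (x : M) : ph m p s x ∈ (sob m).A :=
  ⟨ph_mem hC.toIsDir hp hs x, ph_top hC hp hk hs x⟩

include hC hB hp hk in
theorem ph_test (hs : 0 < s) (x : M) : ph m p s x ∈ (sob m).Test := by
  have h := P_ph hC.toIsDir hp (s := s / 2) (t := s / 2) (by linarith) (by linarith) x
  rw [add_halves] at h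
  rw [← h]
  exact IsGamma.P_test_pos hC hB (by linarith) (ph_mem2 hp (by linarith) x)
    (ph_top hC hp hk (by linarith) x)

end gamma

end Vale.Agent.P242.H990
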