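import Vale.Agent.P242.H990.Ph
import Vale.Agent.P242.H225.LapSq

/-! P242, package F-CONS (helper990), part 4: Gaussian bounds of the gradient and of the Laplacian of
the heat kernel, (K1), (K3), in kernel form. -/

set_option linter.all false

open MeasureTheory Filter Topology Set
open scoped ENNReal NNReal

universe u

namespace Vale.Agent.P242.H990

open Vale.Agent.P233 Vale.Agent.P242.H520

theorem KB.mono {M : Type*} [MetricSpace M] {n : ℕ} {o : M} {A A' : ℝ} {p : ℝ → M → M → ℝ}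
    (h : KB n o A p) (hA : A ≤ A') : KB n o A' p := by
  have h0 := h.pos
  have h0' : 0 < A' := h0.trans_le hA
  refine ⟨h.one_le.trans hA, fun s hs hs1 x z => ?_, fun s hs hs1 x z => ?_,
    fun s hs hs1 x x' z hx => ?_⟩
  · refine (h.upper s hs hs1 x z).trans ?_
    have q0 : 0 < √s := Real.sqrt_pos.2 hs
    have e : dist x z ^ 2 / (A' * s) ≤ dist x z ^ 2 / (A * s) := by gcongr
    have e1 : Real.exp (-(dist x z ^ 2 / (A * s))) ≤ Real.exp (-(dist x z ^ 2 / (A' * s))) :=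
      Real.exp_le_exp.2 (by linarith)
    gcongr
  · refine le_trans ?_ (h.lower s hs hs1 x z)
    have q0 : 0 < √s := Real.sqrt_pos.2 hs
    have e : A * dist x z ^ 2 / s ≤ A' * dist x z ^ 2 / s := by gcongr
    have e1 : Real.exp (-(A' * dist x z ^ 2 / s)) ≤ Real.exp (-(A * dist x z ^ 2 / s)) :=
      Real.exp_le_exp.2 (by linarith)
    have e2 : Real.exp (-(A' * dist x o)) ≤ Real.exp (-(A * dist x o)) :=
      Real.exp_le_exp.2 (by
        have : A * dist x o ≤ A' * dist x o := by gcongr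
        linarith)
    have e3 : A'⁻¹ ≤ A⁻¹ := by gcongr
    gcongr
  · refine (h.lip s hs hs1 x x' z hx).trans ?_
    have q0 : 0 < √s := Real.sqrt_pos.2 hs
    have e : dist x z ^ 2 / (A' * s) ≤ dist x z ^ 2 / (A * s) := by gcongr
    have e1 : Real.exp (-(dist x z ^ 2 / (A * s))) ≤ Real.exp (-(dist x z ^ 2 / (A' * s))) :=
      Real.exp_le_exp.2 (by linarith)
    gcongr

variable {M : Type u} [MetricSpace M] [MeasurableSpace M] {m : Measure M} {p : ℝ → M → M → ℝ}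
  {n : ℕ} {o : M} {A : ℝ}

/-- the Gaussian at time `τ` with exponent `16 A` -/
noncomputable def Gs (n : ℕ) (o : M) (A τ : ℝ) (x z : M) : ℝ :=
  A * Real.exp (A ^ 3) * Real.exp (A * dist x o) * (√τ ^ n)⁻¹ *
    Real.exp (-(dist x z ^ 2 / (16 * A * τ)))

/-- `P_τ (p_τ(x,·)²) (z) ≤ Gs²` -/
theorem Q_le (hp : Ker0 m p) (hk : KB n o A p) {τ : ℝ} (hτ : 0 < τ) (hτ1 : τ ≤ 1 / 2) (x z : M) :
    Integrable (fun w => p τ z w * p τ x w ^ 2) m ∧
    pt m p τ (fun w => p τ x w ^ 2) z ≤ Gs n o A τ x z ^ 2 := by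
  have hA := hk.one_le
  have hA0 := hk.pos
  have q0 : 0 < √τ := Real.sqrt_pos.2 hτ
  set V : ℝ := (√τ ^ n)⁻¹ with hV
  have hV0 : 0 < V := by positivity
  set E : ℝ := Real.exp (dist x z ^ 2 / (4 * A * τ)) with hE
  have hE0 : 0 < E := Real.exp_pos _
  have key : ∀ w, E * (p τ z w * p τ x w ^ 2) ≤
      (A * Real.exp (A * dist z o) * V) * (A * Real.exp (A * dist x o) * V) * p τ x w := by
    intro w
    have u1 := hk.upper τ hτ hτ1 z w
    have u2 := hk.upper τ hτ hτ1 x w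
    have n1 := hp.nonneg τ hτ z w
    have n2 := hp.nonneg τ hτ x w
    have t : dist x z ^ 2 ≤ 2 * dist x w ^ 2 + 2 * dist z w ^ 2 := by
      have a : dist x z ≤ dist x w + dist z w := by
        have := dist_triangle x w z
        rwa [dist_comm w z] at this
      have b : dist x z ^ 2 ≤ (dist x w + dist z w) ^ 2 := pow_le_pow_left₀ dist_nonneg a 2
      nlinarith [sq_nonneg (dist x w - dist z w)]
    have ex : E * (Real.exp (-(dist z w ^ 2 / (A * τ))) * Real.exp (-(dist x w ^ 2 / (A * τ)))) ≤ 1 := by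
      rw [hE, ← Real.exp_add, ← Real.exp_add, Real.exp_le_one_iff]
      have e1 : dist x z ^ 2 / (4 * A * τ) ≤ (2 * dist x w ^ 2 + 2 * dist z w ^ 2) / (4 * A * τ) := by
        gcongr
      have e2 : (2 * dist x w ^ 2 + 2 * dist z w ^ 2) / (4 * A * τ) =
          (dist x w ^ 2 / (A * τ) + dist z w ^ 2 / (A * τ)) / 2 := by
        field_simp
        ring
      have e3 : 0 ≤ dist x w ^ 2 / (A * τ) := by positivity
      have e4 : 0 ≤ dist z w ^ 2 / (A * τ) := by positivity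
      linarith
    calc E * (p τ z w * p τ x w ^ 2) = E * (p τ z w * p τ x w) * p τ x w := by ring
      _ ≤ E * ((A * Real.exp (A * dist z o) * V * Real.exp (-(dist z w ^ 2 / (A * τ)))) *
          (A * Real.exp (A * dist x o) * V * Real.exp (-(dist x w ^ 2 / (A * τ))))) * p τ x w := by
          gcongr
      _ = (A * Real.exp (A * dist z o) * V) * (A * Real.exp (A * dist x o) * V) * p τ x w *
          (E * (Real.exp (-(dist z w ^ 2 / (A * τ))) * Real.exp (-(dist x w ^ 2 / (A * τ))))) := by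
          ring
      _ ≤ (A * Real.exp (A * dist z o) * V) * (A * Real.exp (A * dist x o) * V) * p τ x w * 1 := by
          gcongr
      _ = _ := mul_one _
  have hi : Integrable (fun w => p τ z w * p τ x w ^ 2) m := by
    have hd : Integrable (fun w => E⁻¹ * ((A * Real.exp (A * dist z o) * V) *
      (A * Real.exp (A * dist x o) * V) * p τ x w)) m :=
      ((hp.int τ hτ x).const_mul _).const_mul _
    refine hd.mono' ((ph_meas hp hτ z).mul ((ph_meas hp hτ x).pow 2))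
      (Eventually.of_forall fun w => ?_)
    have n1 := hp.nonneg τ hτ z w
    rw [Real.norm_eq_abs, abs_of_nonneg (mul_nonneg n1 (sq_nonneg _)), ← div_eq_inv_mul,
      le_div_iff₀ hE0, mul_comm]
    exact key w
  refine ⟨hi, ?_⟩
  have h1 : E * pt m p τ (fun w => p τ x w ^ 2) z ≤
      (A * Real.exp (A * dist z o) * V) * (A * Real.exp (A * dist x o) * V) := by
    unfold pt
    rw [← integral_const_mul]
    have h2 : ∫ w, (A * Real.exp (A * dist z o) * V) * (A * Real.exp (A * dist x o) * V) * p τ x w ∂m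
        = (A * Real.exp (A * dist z o) * V) * (A * Real.exp (A * dist x o) * V) := by
      rw [integral_const_mul, hp.mass τ hτ x, mul_one]
    rw [← h2]
    exact integral_mono (hi.const_mul _) ((hp.int τ hτ x).const_mul _) key
  have h3 : A * dist z o ≤ A * dist x o + (dist x z ^ 2 / (8 * A * τ) + 2 * A ^ 3) := by
    have a : dist z o ≤ dist x z + dist x o := by
      have := dist_triangle z x o
      rwa [dist_comm z x] at this
    have b : A * dist x z ≤ dist x z ^ 2 / (8 * A * τ) + 2 * A ^ 3 * τ := by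
      have e : dist x z ^ 2 / (8 * A * τ) + 2 * A ^ 3 * τ - A * dist x z =
          (dist x z - 4 * A ^ 2 * τ) ^ 2 / (8 * A * τ) := by
        field_simp
        ring
      have : 0 ≤ (dist x z - 4 * A ^ 2 * τ) ^ 2 / (8 * A * τ) := by positivity
      linarith
    have c : 2 * A ^ 3 * τ ≤ 2 * A ^ 3 := mul_le_of_le_one_right (by positivity) (by linarith)
    nlinarith
  have h4 : Real.exp (A * dist z o) ≤ Real.exp (A * dist x o) *
      (Real.exp (dist x z ^ 2 / (8 * A * τ)) * Real.exp (2 * A ^ 3)) := by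
    rw [← Real.exp_add, ← Real.exp_add]
    exact Real.exp_le_exp.2 h3
  have h5 : pt m p τ (fun w => p τ x w ^ 2) z ≤
      E⁻¹ * ((A * Real.exp (A * dist z o) * V) * (A * Real.exp (A * dist x o) * V)) := by
    rw [← div_eq_inv_mul, le_div_iff₀ hE0, mul_comm]
    exact h1
  refine h5.trans ?_
  have h6 : E⁻¹ * Real.exp (dist x z ^ 2 / (8 * A * τ)) =
      Real.exp (-(dist x z ^ 2 / (16 * A * τ))) ^ 2 := by
    have e : ∀ y : ℝ, Real.exp y ^ 2 = Real.exp (2 * y) := fun y => by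
      rw [pow_two, ← Real.exp_add]; congr 1; ring
    rw [e, hE, ← Real.exp_neg, ← Real.exp_add]
    congr 1
    field_simp
    ring
  have h7 : Real.exp (2 * A ^ 3) = Real.exp (A ^ 3) ^ 2 := by
    rw [sq, ← Real.exp_add]; congr 1; ring
  calc E⁻¹ * ((A * Real.exp (A * dist z o) * V) * (A * Real.exp (A * dist x o) * V))
      ≤ E⁻¹ * ((A * (Real.exp (A * dist x o) *
        (Real.exp (dist x z ^ 2 / (8 * A * τ)) * Real.exp (2 * A ^ 3))) * V) *
        (A * Real.exp (A * dist x o) * V)) := by gcongr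
    _ = A ^ 2 * Real.exp (A * dist x o) ^ 2 * V ^ 2 * Real.exp (2 * A ^ 3) *
        (E⁻¹ * Real.exp (dist x z ^ 2 / (8 * A * τ))) := by ring
    _ = Gs n o A τ x z ^ 2 := by
        rw [h6, h7]
        unfold Gs
        ring

/-- the constant of `Gs_le` -/
noncomputable def cK (n : ℕ) (A Γ C₀ : ℝ) : ℝ := Real.exp (A ^ 3) * cG n (16 * A) (2 * Γ) (2 * C₀)

theorem cK_pos {n : ℕ} {A Γ C₀ : ℝ} (hA : 1 ≤ A) (hΓ : 0 < Γ) : 0 < cK n A Γ C₀ :=
  mul_pos (Real.exp_pos _) (cG_pos (by linarith) (by linarith))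

theorem Gs_nonneg (hA : 0 < A) {τ : ℝ} (x z : M) : 0 ≤ Gs n o A τ x z := by
  unfold Gs
  have : 0 ≤ √τ := Real.sqrt_nonneg _
  positivity

theorem Gs_le (hk : KB n o A p) {Γ C₀ s s' : ℝ} {x x' z : M} (hs : 0 < s)
    (h1 : 512 * A ^ 2 * s ≤ s') (h2 : s' ≤ Γ * s) (h3 : s' ≤ 1 / 2) (hx : dist x x' ≤ C₀ * √s) :
    Real.exp (dist x z ^ 2 / (16 * A * s)) * Gs n o A (s / 2) x z ≤
      cK n A Γ C₀ * Real.exp (32 * A * dist x o) * p s' x' z := by
  have hA := hk.one_le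
  have hA0 := hk.pos
  have q0 : 0 < √s := Real.sqrt_pos.2 hs
  have hτ : 0 < s / 2 := by linarith
  have qτ : 0 < √(s / 2) := Real.sqrt_pos.2 hτ
  have hC0 : 0 ≤ C₀ := by
    have : 0 ≤ C₀ * √s := dist_nonneg.trans hx
    by_contra hc
    rw [not_le] at hc
    nlinarith
  have hq : √s ≤ 2 * √(s / 2) := by
    have h4 : (2 : ℝ) * √(s / 2) = √(4 * (s / 2)) := by
      rw [Real.sqrt_mul (by norm_num), show (4 : ℝ) = 2 ^ 2 by norm_num,
        Real.sqrt_sq (by norm_num)]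
    rw [h4]
    exact Real.sqrt_le_sqrt (by linarith)
  have hk' := hk.mono (show A ≤ 16 * A by linarith)
  have g := hk'.gauss_le (Γ := 2 * Γ) (C₀ := 2 * C₀) (s := s / 2) (s' := s') (x := x) (x' := x')
    (z := z) hτ (by nlinarith) (by linarith) h3 (by
      calc dist x x' ≤ C₀ * √s := hx
        _ ≤ C₀ * (2 * √(s / 2)) := by gcongr
        _ = 2 * C₀ * √(s / 2) := by ring)
  have e1 : dist x z ^ 2 / (2 * (16 * A) * (s / 2)) = dist x z ^ 2 / (16 * A * s) := by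
    congr 1; ring
  have e2 : 2 * (16 * A) * dist x o = 32 * A * dist x o := by ring
  rw [e1, e2] at g
  have e3 : Gs n o A (s / 2) x z ≤ Real.exp (A ^ 3) * (16 * A * Real.exp (16 * A * dist x o) *
      (√(s / 2) ^ n)⁻¹ * Real.exp (-(dist x z ^ 2 / (16 * A * (s / 2))))) := by
    unfold Gs
    have a1 : A ≤ 16 * A := by linarith
    have a2 : Real.exp (A * dist x o) ≤ Real.exp (16 * A * dist x o) :=
      Real.exp_le_exp.2 (mul_le_mul_of_nonneg_right a1 dist_nonneg)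
    calc A * Real.exp (A ^ 3) * Real.exp (A * dist x o) * (√(s / 2) ^ n)⁻¹ *
        Real.exp (-(dist x z ^ 2 / (16 * A * (s / 2))))
        ≤ (16 * A) * Real.exp (A ^ 3) * Real.exp (16 * A * dist x o) * (√(s / 2) ^ n)⁻¹ *
        Real.exp (-(dist x z ^ 2 / (16 * A * (s / 2)))) := by gcongr
      _ = _ := by ring
  calc Real.exp (dist x z ^ 2 / (16 * A * s)) * Gs n o A (s / 2) x z
      ≤ Real.exp (dist x z ^ 2 / (16 * A * s)) * (Real.exp (A ^ 3) *
        (16 * A * Real.exp (16 * A * dist x o) * (√(s / 2) ^ n)⁻¹ *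
          Real.exp (-(dist x z ^ 2 / (16 * A * (s / 2)))))) := by gcongr
    _ = Real.exp (A ^ 3) * (Real.exp (dist x z ^ 2 / (16 * A * s)) *
        (16 * A * Real.exp (16 * A * dist x o) * (√(s / 2) ^ n)⁻¹ *
          Real.exp (-(dist x z ^ 2 / (16 * A * (s / 2)))))) := by ring
    _ ≤ Real.exp (A ^ 3) * (cG n (16 * A) (2 * Γ) (2 * C₀) * Real.exp (32 * A * dist x o) *
        p s' x' z) := by gcongr
    _ = _ := by unfold cK; ring

section

variable (hC : IsGamma (sob m)) (hp : Ker0 m p) (hk : KB n o A p)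
include hC hp hk

/-- `P_τ (p_τ(x,·)²) ≤ Gs²` almost everywhere -/
theorem P_sq_ph_le {τ : ℝ} (hτ : 0 < τ) (hτ1 : τ ≤ 1 / 2) (x : M) :
    MemLp (ph m p τ x ^ 2 : M →ₘ[m] ℝ) 2 m ∧
    ∀ᵐ z ∂m, (sob m).P τ (ph m p τ x ^ 2) z ≤ Gs n o A τ x z ^ 2 := by
  have h2 : MemLp (ph m p τ x ^ 2 : M →ₘ[m] ℝ) 2 m := by
    rw [sq]
    exact mem_mul_top (ph_top hC hp hk hτ x) (ph_mem2 hp hτ x)
  refine ⟨h2, ?_⟩
  have hc : ⇑(ph m p τ x ^ 2 : M →ₘ[m] ℝ) =ᵐ[m] fun w => p τ x w ^ 2 := by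
    filter_upwards [sq_ae (ph m p τ x), ph_ae hp hτ x] with w a b
    rw [a, b]
  filter_upwards [hp.rep τ hτ _ h2] with z hz
  rw [hz, pt_congr hp hc]
  exact (Q_le hp hk hτ hτ1 x z).2

/-- (KG), Gaussian form -/
theorem ph_grad_gauss {κ : ℝ} (hB : (sob m).BEi κ) {s : ℝ} (hs : 0 < s) (hs1 : s ≤ 1) (x : M) :
    ∀ᵐ z ∂m, (sob m).Γ (ph m p s x) (ph m p s x) z ≤
      (Real.exp |κ| / √s * Gs n o A (s / 2) x z) ^ 2 := by
  have hτ : 0 < s / 2 := by linarith
  have e := P_ph hC.toIsDir hp (s := s / 2) (t := s / 2) hτ.le hτ x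
  rw [add_halves] at e
  have h := H881.reverse_poincare hC hB hτ (ph_mem2 hp hτ x) (ph_top hC hp hk hτ x)
  rw [e] at h
  obtain ⟨-, h2⟩ := P_sq_ph_le hC hp hk hτ (by linarith) x
  filter_upwards [h, h2] with z a b
  have qs : √s ^ 2 = s := Real.sq_sqrt hs.le
  have q0 : 0 < √s := Real.sqrt_pos.2 hs
  have c1 : 2 * (s / 2) * Real.exp (-(2 * |κ| * (s / 2))) * (sob m).Γ (ph m p s x) (ph m p s x) z
      ≤ Gs n o A (s / 2) x z ^ 2 := by
    have := sq_nonneg (ph m p s x z)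
    linarith
  have c2 : Real.exp (-(2 * |κ| * (s / 2))) * Real.exp (|κ| * s) = 1 := by
    rw [← Real.exp_add, Real.exp_eq_one_iff]; ring
  have c3 : Real.exp (|κ| * s) ≤ Real.exp |κ| ^ 2 := by
    rw [sq, ← Real.exp_add]
    apply Real.exp_le_exp.2
    have := abs_nonneg κ
    nlinarith
  have hG0 := sq_nonneg (Gs n o A (s / 2) x z)
  have c4 : (sob m).Γ (ph m p s x) (ph m p s x) z * s ≤ Real.exp (|κ| * s) *
      Gs n o A (s / 2) x z ^ 2 := by
    calc (sob m).Γ (ph m p s x) (ph m p s x) z * s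
        = Real.exp (|κ| * s) * (2 * (s / 2) * Real.exp (-(2 * |κ| * (s / 2))) *
          (sob m).Γ (ph m p s x) (ph m p s x) z) := by
          linear_combination (-((sob m).Γ (ph m p s x) (ph m p s x) z * s)) * c2
      _ ≤ _ := by gcongr
  rw [mul_pow, div_pow, qs, div_mul_eq_mul_div, le_div_iff₀ hs]
  exact c4.trans (mul_le_mul_of_nonneg_right c3 hG0)

/-- (KL), Gaussian form -/
theorem ph_lap_gauss [SigmaFinite m] {K N : ℝ} (hN : 0 < N) (hB : (sob m).BE K N) {s : ℝ}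
    (hs : 0 < s) (hs1 : s ≤ 1) (x : M) :
    ∀ᵐ z ∂m, |(sob m).lap (ph m p s x) z| ≤
      6 * (N + 1) * Real.exp |K| / s * Gs n o A (s / 2) x z := by
  have hA0 := hk.pos
  have hτ : 0 < s / 2 := by linarith
  have e := P_ph hC.toIsDir hp (s := s / 2) (t := s / 2) hτ.le hτ x
  rw [add_halves] at e
  have h := H225.lap_sq_le hC hN hB hτ (ph_mem2 hp hτ x) (ph_top hC hp hk hτ x)
  rw [e] at h
  obtain ⟨-, h2⟩ := P_sq_ph_le hC hp hk hτ (by linarith) x
  filter_upwards [h, h2] with z a b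
  have g0 := Gs_nonneg (n := n) (o := o) hA0 (τ := s / 2) x z
  refine abs_le_of_sq_le_sq' ?_ (by positivity) |> abs_le.2
  have c1 : (sob m).lap (ph m p s x) z ^ 2 ≤
      8 * N * Real.exp (2 * |K| * (s / 2)) / (s / 2) ^ 2 * Gs n o A (s / 2) x z ^ 2 :=
    a.trans (mul_le_mul_of_nonneg_left b (by positivity))
  refine c1.trans ?_
  have c3 : Real.exp (2 * |K| * (s / 2)) ≤ Real.exp |K| ^ 2 := by
    rw [sq, ← Real.exp_add]
    apply Real.exp_le_exp.2
    have := abs_nonneg K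
    nlinarith
  have c4 : 8 * N * Real.exp (2 * |K| * (s / 2)) / (s / 2) ^ 2 ≤
      (6 * (N + 1) * Real.exp |K| / s) ^ 2 := by
    have d1 : 8 * N * Real.exp (2 * |K| * (s / 2)) / (s / 2) ^ 2 ≤
        8 * N * Real.exp |K| ^ 2 / (s / 2) ^ 2 := by gcongr
    have d2 : 8 * N * Real.exp |K| ^ 2 / (s / 2) ^ 2 = 32 * N * Real.exp |K| ^ 2 / s ^ 2 := by
      field_simp
      ring
    have d3 : (6 * (N + 1) * Real.exp |K| / s) ^ 2 = 36 * (N + 1) ^ 2 * Real.exp |K| ^ 2 / s ^ 2 := by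
      field_simp
      ring
    rw [d3]
    refine d1.trans (d2.le.trans ?_)
    have d4 : 32 * N ≤ 36 * (N + 1) ^ 2 := by nlinarith
    gcongr
  calc 8 * N * Real.exp (2 * |K| * (s / 2)) / (s / 2) ^ 2 * Gs n o A (s / 2) x z ^ 2
      ≤ (6 * (N + 1) * Real.exp |K| / s) ^ 2 * Gs n o A (s / 2) x z ^ 2 := by gcongr
    _ = _ := by ring

/-- (KG): `|∇p_s(x,·)| ≤ (C/√s) e^{-d²/(16As)} p_{s'}(x',·)` -/
theorem ph_grad {κ : ℝ} (hB : (sob m).BEi κ) {Γ C₀ s s' : ℝ} {x x' : M} (hs : 0 < s)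
    (h1 : 512 * A ^ 2 * s ≤ s') (h2 : s' ≤ Γ * s) (h3 : s' ≤ 1 / 2) (hx : dist x x' ≤ C₀ * √s) :
    ∀ᵐ z ∂m, √((sob m).Γ (ph m p s x) (ph m p s x) z) ≤
      Real.exp |κ| / √s * (cK n A Γ C₀ * Real.exp (32 * A * dist x o)) *
        (Real.exp (-(dist x z ^ 2 / (16 * A * s))) * p s' x' z) := by
  have hA := hk.one_le
  have hA0 := hk.pos
  have hA2 : 1 ≤ A ^ 2 := one_le_pow₀ hA
  have hs1 : s ≤ 1 := by nlinarith
  have q0 : 0 < √s := Real.sqrt_pos.2 hs
  filter_upwards [ph_grad_gauss hC hp hk hB hs hs1 x] with z a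
  have g0 := Gs_nonneg (n := n) (o := o) hA0 (τ := s / 2) x z
  have b : √((sob m).Γ (ph m p s x) (ph m p s x) z) ≤ Real.exp |κ| / √s * Gs n o A (s / 2) x z :=
    Real.sqrt_le_iff.2 ⟨by positivity, a⟩
  have c := Gs_le hk (z := z) hs h1 h2 h3 hx
  have d : Gs n o A (s / 2) x z ≤ Real.exp (-(dist x z ^ 2 / (16 * A * s))) *
      (cK n A Γ C₀ * Real.exp (32 * A * dist x o) * p s' x' z) := by
    rw [Real.exp_neg, ← div_eq_inv_mul, le_div_iff₀ (Real.exp_pos _), mul_comm]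
    exact c
  calc √((sob m).Γ (ph m p s x) (ph m p s x) z) ≤ Real.exp |κ| / √s * Gs n o A (s / 2) x z := b
    _ ≤ Real.exp |κ| / √s * (Real.exp (-(dist x z ^ 2 / (16 * A * s))) *
      (cK n A Γ C₀ * Real.exp (32 * A * dist x o) * p s' x' z)) := by gcongr
    _ = _ := by ring

/-- (KL): `|Δp_s(x,·)| ≤ (C/s) e^{-d²/(16As)} p_{s'}(x',·)` -/
theorem ph_lap [SigmaFinite m] {K N : ℝ} (hN : 0 < N) (hB : (sob m).BE K N)
    {Γ C₀ s s' : ℝ} {x x' : M} (hs : 0 < s)
    (h1 : 512 * A ^ 2 * s ≤ s') (h2 : s' ≤ Γ * s) (h3 : s' ≤ 1 / 2) (hx : dist x x' ≤ C₀ * √s) :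
    ∀ᵐ z ∂m, |(sob m).lap (ph m p s x) z| ≤
      6 * (N + 1) * Real.exp |K| / s * (cK n A Γ C₀ * Real.exp (32 * A * dist x o)) *
        (Real.exp (-(dist x z ^ 2 / (16 * A * s))) * p s' x' z) := by
  have hA := hk.one_le
  have hA0 := hk.pos
  have hA2 : 1 ≤ A ^ 2 := one_le_pow₀ hA
  have hs1 : s ≤ 1 := by nlinarith
  filter_upwards [ph_lap_gauss hC hp hk hN hB hs hs1 x] with z b
  have c := Gs_le hk (z := z) hs h1 h2 h3 hx
  have d : Gs n o A (s / 2) x z ≤ Real.exp (-(dist x z ^ 2 / (16 * A * s))) *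
      (cK n A Γ C₀ * Real.exp (32 * A * dist x o) * p s' x' z) := by
    rw [Real.exp_neg, ← div_eq_inv_mul, le_div_iff₀ (Real.exp_pos _), mul_comm]
    exact c
  calc |(sob m).lap (ph m p s x) z| ≤ 6 * (N + 1) * Real.exp |K| / s * Gs n o A (s / 2) x z := b
    _ ≤ 6 * (N + 1) * Real.exp |K| / s * (Real.exp (-(dist x z ^ 2 / (16 * A * s))) *
      (cK n A Γ C₀ * Real.exp (32 * A * dist x o) * p s' x' z)) := by gcongr
    _ = _ := by ring

end

end Vale.Agent.P242.H990
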