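import Vale.Agent.P242.H990.Cons

/-! P242 (helper990): Harnack inequality with quadratic growth for all pairs of points, Gaussian
moments, and the regularity bound (k1) of helper655 at a fixed centre. -/

set_option linter.all false

open MeasureTheory Filter Topology Set
open scoped ENNReal NNReal

universe u

namespace Vale.Agent.P242.H990

open Vale.Agent.P233 Vale.Agent.P242.H520 Vale.Agent.P242.H937

/-- the constant of `far_le` -/
noncomputable def cF (n : ℕ) (A Γ : ℝ) : ℝ := A ^ 2 * √Γ ^ n * Real.exp A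

theorem cF_pos {n : ℕ} {A Γ : ℝ} (hA : 1 ≤ A) (hΓ : 0 < Γ) : 0 < cF n A Γ := by
  unfold cF
  have : 0 < √Γ := Real.sqrt_pos.2 hΓ
  positivity

/-- the kernel at an earlier time and an arbitrary point -/
theorem KB.far_le {M : Type*} [MetricSpace M] {n : ℕ} {o : M} {A : ℝ} {p : ℝ → M → M → ℝ}
    (h : KB n o A p) {Γ s t : ℝ} (y z w : M) (hs : 0 < s)
    (h1 : 4 * A ^ 2 * s ≤ t) (h2 : t ≤ Γ * s) (h3 : t ≤ 1 / 2) :
    Real.exp (dist z w ^ 2 / (2 * A * s)) * p s z w ≤
      cF n A Γ * Real.exp (2 * A * dist y o) * Real.exp (3 * A * dist y z ^ 2 / t) * p t y w := by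
  have hA := h.one_le
  have hA0 := h.pos
  have ht : 0 < t := lt_of_lt_of_le (by positivity) h1
  have hΓ0 : 0 < Γ := by
    by_contra hc
    rw [not_lt] at hc
    nlinarith
  have hA2 : 1 ≤ A ^ 2 := one_le_pow₀ hA
  have hst : s ≤ t := by nlinarith
  have hs1 : s ≤ 1 / 2 := hst.trans h3
  have q0 : 0 < √s := Real.sqrt_pos.2 hs
  have low := h.lower t ht h3 y w
  have upp := h.upper s hs hs1 z w
  set d := dist y z with hd
  have hd0 : 0 ≤ d := dist_nonneg
  have t2 : dist y w ^ 2 ≤ 2 * d ^ 2 + 2 * dist z w ^ 2 := by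
    have a := pow_le_pow_left₀ dist_nonneg (dist_triangle y z w) 2
    nlinarith [sq_nonneg (d - dist z w)]
  have t3 : dist z o ≤ d + dist y o := by
    have := dist_triangle z y o
    rwa [dist_comm z y] at this
  have t4 : A * d ≤ A * d ^ 2 / t + A := by
    have e : A * d ^ 2 / t + A * t - A * d = A * ((d - t / 2) ^ 2 + 3 * t ^ 2 / 4) / t := by
      field_simp
      ring
    have : 0 ≤ A * ((d - t / 2) ^ 2 + 3 * t ^ 2 / 4) / t := by positivity
    have : A * t ≤ A := mul_le_of_le_one_right hA0.le (by linarith)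
    linarith
  have t5 : A * dist y w ^ 2 / t ≤ 2 * A * d ^ 2 / t + dist z w ^ 2 / (2 * A * s) := by
    have a1 : A * dist y w ^ 2 / t ≤ A * (2 * d ^ 2 + 2 * dist z w ^ 2) / t := by gcongr
    have a2 : A * (2 * d ^ 2 + 2 * dist z w ^ 2) / t = 2 * A * d ^ 2 / t +
        2 * A * dist z w ^ 2 / t := by ring
    have a3 : 2 * A * dist z w ^ 2 / t ≤ 2 * A * dist z w ^ 2 / (4 * A ^ 2 * s) := by gcongr
    have a4 : 2 * A * dist z w ^ 2 / (4 * A ^ 2 * s) = dist z w ^ 2 / (2 * A * s) := by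
      field_simp
      ring
    linarith
  have t6 : (√s ^ n)⁻¹ ≤ √Γ ^ n * (√t ^ n)⁻¹ := by
    have b1 : √t ≤ √Γ * √s := by
      rw [← Real.sqrt_mul hΓ0.le]
      exact Real.sqrt_le_sqrt h2
    have b2 : √t ^ n ≤ √Γ ^ n * √s ^ n := by
      rw [← mul_pow]
      exact pow_le_pow_left₀ (Real.sqrt_nonneg _) b1 n
    have b3 : 0 < √t ^ n := pow_pos (Real.sqrt_pos.2 ht) n
    have b4 : 0 < √s ^ n := pow_pos q0 n
    rw [← div_eq_mul_inv, le_div_iff₀ b3, inv_mul_le_iff₀ b4]
    linarith
  have e1 : Real.exp (dist z w ^ 2 / (2 * A * s)) * Real.exp (-(dist z w ^ 2 / (A * s))) =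
      Real.exp (-(dist z w ^ 2 / (2 * A * s))) := by
    rw [← Real.exp_add]
    congr 1
    field_simp
    ring
  have e2 : Real.exp (A * dist z o) * Real.exp (-(dist z w ^ 2 / (2 * A * s))) ≤
      Real.exp A * Real.exp (2 * A * dist y o) * Real.exp (3 * A * d ^ 2 / t) *
        (Real.exp (-(A * dist y o)) * Real.exp (-(A * dist y w ^ 2 / t))) := by
    simp only [← Real.exp_add]
    apply Real.exp_le_exp.2
    have : A * dist z o ≤ A * d + A * dist y o := by nlinarith
    have e3 : 3 * A * d ^ 2 / t = 2 * A * d ^ 2 / t + A * d ^ 2 / t := by ring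
    linarith
  have low' : (√t ^ n)⁻¹ * (Real.exp (-(A * dist y o)) * Real.exp (-(A * dist y w ^ 2 / t))) ≤
      A * p t y w := by
    have c1 := mul_le_mul_of_nonneg_left low hA0.le
    have c2 : A * (A⁻¹ * Real.exp (-(A * dist y o)) * (√t ^ n)⁻¹ *
        Real.exp (-(A * dist y w ^ 2 / t)))
        = (√t ^ n)⁻¹ * (Real.exp (-(A * dist y o)) * Real.exp (-(A * dist y w ^ 2 / t))) := by
      field_simp
    rwa [c2] at c1
  calc Real.exp (dist z w ^ 2 / (2 * A * s)) * p s z w
      ≤ Real.exp (dist z w ^ 2 / (2 * A * s)) * (A * Real.exp (A * dist z o) * (√s ^ n)⁻¹ *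
        Real.exp (-(dist z w ^ 2 / (A * s)))) := by gcongr
    _ = A * (√s ^ n)⁻¹ * (Real.exp (A * dist z o) * (Real.exp (dist z w ^ 2 / (2 * A * s)) *
        Real.exp (-(dist z w ^ 2 / (A * s))))) := by ring
    _ = A * (√s ^ n)⁻¹ * (Real.exp (A * dist z o) *
        Real.exp (-(dist z w ^ 2 / (2 * A * s)))) := by rw [e1]
    _ ≤ A * (√Γ ^ n * (√t ^ n)⁻¹) * (Real.exp A * Real.exp (2 * A * dist y o) *
        Real.exp (3 * A * d ^ 2 / t) *
        (Real.exp (-(A * dist y o)) * Real.exp (-(A * dist y w ^ 2 / t)))) := by gcongr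
    _ = A * √Γ ^ n * Real.exp A * Real.exp (2 * A * dist y o) * Real.exp (3 * A * d ^ 2 / t) *
        ((√t ^ n)⁻¹ * (Real.exp (-(A * dist y o)) * Real.exp (-(A * dist y w ^ 2 / t)))) := by ring
    _ ≤ A * √Γ ^ n * Real.exp A * Real.exp (2 * A * dist y o) * Real.exp (3 * A * d ^ 2 / t) *
        (A * p t y w) := by gcongr
    _ = _ := by unfold cF; ring

variable {M : Type u} [MetricSpace M] [MeasurableSpace M] {m : Measure M} {p : ℝ → M → M → ℝ}
  {n : ℕ} {o : M} {A : ℝ}

section far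

variable (hp : Ker0 m p) (hk : KB n o A p)
include hp hk

/-- Harnack inequality with quadratic growth: `P_s|F|(z) ≤ C e^{3A d(y,z)²/t} P_t|F|(y)` -/
theorem pt_far {Γ s t : ℝ} (y z : M) (hs : 0 < s) (h1 : 4 * A ^ 2 * s ≤ t) (h2 : t ≤ Γ * s)
    (h3 : t ≤ 1 / 2) {F : M → ℝ} (hF : AEStronglyMeasurable F m)
    (hi : Integrable (fun w => p t y w * F w) m) :
    Integrable (fun w => p s z w * F w) m ∧
    pt m p s (fun w => |F w|) z ≤ cF n A Γ * Real.exp (2 * A * dist y o) *
      Real.exp (3 * A * dist y z ^ 2 / t) * pt m p t (fun w => |F w|) y := by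
  have hA := hk.one_le
  have hA0 := hk.pos
  have ht : 0 < t := lt_of_lt_of_le (by positivity) h1
  set c := cF n A Γ * Real.exp (2 * A * dist y o) * Real.exp (3 * A * dist y z ^ 2 / t) with hc
  have key : ∀ w, p s z w ≤ c * p t y w := by
    intro w
    have g := hk.far_le y z w hs h1 h2 h3
    have g1 : 1 ≤ Real.exp (dist z w ^ 2 / (2 * A * s)) := Real.one_le_exp (by positivity)
    have p0 := hp.nonneg s hs z w
    calc p s z w ≤ Real.exp (dist z w ^ 2 / (2 * A * s)) * p s z w := le_mul_of_one_le_left p0 g1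
      _ ≤ _ := g
  have hia := pt_int_abs hp ht hi
  have hint : Integrable (fun w => p s z w * F w) m := by
    refine (hia.const_mul c).mono' ((ph_meas hp hs z).mul hF) (Eventually.of_forall fun w => ?_)
    rw [Real.norm_eq_abs, abs_mul, abs_of_nonneg (hp.nonneg s hs z w)]
    calc p s z w * |F w| ≤ (c * p t y w) * |F w| :=
          mul_le_mul_of_nonneg_right (key w) (abs_nonneg _)
      _ = _ := by ring
  refine ⟨hint, ?_⟩
  unfold pt
  rw [← integral_const_mul]
  refine integral_mono (pt_int_abs hp hs hint) (hia.const_mul c) fun w => ?_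
  calc p s z w * |F w| ≤ (c * p t y w) * |F w| :=
        mul_le_mul_of_nonneg_right (key w) (abs_nonneg _)
    _ = _ := by ring

/-- Gaussian moments of the kernel -/
theorem pt_gauss_moment [OpensMeasurableSpace M] {s s' : ℝ} (y : M) (hs : 0 < s)
    (h1 : 4 * A ^ 2 * s ≤ s') (h3 : s' ≤ 1 / 2) :
    Integrable (fun z => p s y z * Real.exp (dist y z ^ 2 / (2 * A * s))) m ∧
    pt m p s (fun z => Real.exp (dist y z ^ 2 / (2 * A * s))) y ≤
      cG n A (s' / s) 0 * Real.exp (2 * A * dist y o) := by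
  have hA := hk.one_le
  have hA0 := hk.pos
  have hs' : 0 < s' := lt_of_lt_of_le (by positivity) h1
  have h2 : s' ≤ (s' / s) * s := by rw [div_mul_cancel₀ _ hs.ne']
  have q0 : 0 < √s := Real.sqrt_pos.2 hs
  set c := cG n A (s' / s) 0 * Real.exp (2 * A * dist y o) with hc
  have key : ∀ z, p s y z * Real.exp (dist y z ^ 2 / (2 * A * s)) ≤ c * p s' y z := by
    intro z
    have g := hk.exp_mul_p_le (x := y) (x' := y) (z := z) (C₀ := 0) hs h1 h2 h3
      (by rw [dist_self, zero_mul])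
    rw [mul_comm]
    exact g
  have hint : Integrable (fun z => p s y z * Real.exp (dist y z ^ 2 / (2 * A * s))) m := by
    refine ((hp.int s' hs' y).const_mul c).mono' ((ph_meas hp hs y).mul ?_)
      (Eventually.of_forall fun z => ?_)
    · have : Continuous fun z : M => Real.exp (dist y z ^ 2 / (2 * A * s)) := by fun_prop
      exact this.aestronglyMeasurable
    · rw [Real.norm_eq_abs, abs_of_nonneg (mul_nonneg (hp.nonneg s hs y z) (Real.exp_pos _).le)]
      exact key z
  refine ⟨hint, ?_⟩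
  unfold pt
  calc ∫ z, p s y z * Real.exp (dist y z ^ 2 / (2 * A * s)) ∂m ≤ ∫ z, c * p s' y z ∂m :=
        integral_mono hint ((hp.int s' hs' y).const_mul c) key
    _ = c := by rw [integral_const_mul, hp.mass s' hs' y, mul_one]

end far

section k1

variable (hC : IsGamma (sob m)) (hp : Ker0 m p) (hk : KB n o A p)
include hC hp hk

/-- (K1a) relative to a constant `a` -/
theorem grad_P_sub_le [BorelSpace M] [SecondCountableTopology M]
    (hfin : ∀ (x : M) (r : ℝ), m (Metric.ball x r) < ∞)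
    {Γ s s' : ℝ} (hs : 0 < s)
    (h1 : 4 * A ^ 2 * s ≤ s') (h2 : s' ≤ Γ * s) (h3 : s' ≤ 1 / 2)
    {F : M →ₘ[m] ℝ} (hF : MemLp F 2 m) (a : ℝ) :
    ∀ᵐ z ∂m, √((sob m).Γ ((sob m).P s F) ((sob m).P s F) z) ≤
      (cG n A Γ 0 / √s * Real.exp (2 * A * dist z o)) * pt m p s' (fun w => |F w - a|) z := by
  have hA := hk.one_le
  have hA0 := hk.pos
  have q0 : 0 < √s := Real.sqrt_pos.2 hs
  have hs' : 0 < s' := lt_of_lt_of_le (by positivity) h1
  have hΓ : 0 < Γ := by
    by_contra hc
    rw [not_lt] at hc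
    nlinarith
  have hi0 : ∀ y, Integrable (fun z => p s' y z * F z) m := fun y => pt_int hp hs' y hF
  have hm : AEStronglyMeasurable (fun z => F z - a) m := hF.1.sub aestronglyMeasurable_const
  have hi : ∀ y, Integrable (fun z => p s' y z * (F z - a)) m := by
    intro y
    have := (hi0 y).sub ((hp.int s' hs' y).mul_const a)
    refine this.congr (Eventually.of_forall fun z => ?_)
    simp only [Pi.sub_apply]
    ring
  have e : ∀ w, pt m p s (fun z => F z - a) w = pt m p s F w - a := by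
    intro w
    have h0 : pt m p s (fun z => F z - a) w = pt m p s F w - pt m p s (fun _ => a) w := by
      unfold pt
      rw [← integral_sub (pt_int hp hs w hF) ((hp.int s hs w).mul_const a)]
      refine integral_congr_ae (Eventually.of_forall fun z => ?_)
      simp only
      ring
    rw [h0, pt_const hp hs]
  have hL := pt_lipOnBalls hp hk hs h1 h3 hF.1 hi0
  have hc0 : 0 < cG n A Γ 0 := cG_pos hA hΓ
  have hJ : ∀ x, 0 ≤ pt m p s' (fun w => |F w - a|) x := fun x =>
    pt_nonneg hp hs' x (Eventually.of_forall fun z => abs_nonneg _)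
  have h := Γ_le_of_bound hfin hC.toIsDir (hC.toIsDir.P_mem hs hF) (hp.rep s hs F hF) hL
    (c := fun x => (cG n A Γ 0 / √s * Real.exp (2 * A * dist x o)) *
      pt m p s' (fun w => |F w - a|) x)
    (fun x => mul_nonneg (by positivity) (hJ x)) (fun x => by
      have hb : Metric.ball x (√s) ∈ 𝓝 x := Metric.ball_mem_nhds x q0
      filter_upwards [hb] with y hy
      have hy' : dist x y ≤ √s := by rw [dist_comm]; exact le_of_lt hy
      have h := pt_lip hp hk (x := x) (x' := y) (y := x) (C₀ := 0) hs h1 h2 h3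
        (by rw [dist_self, zero_mul]) hy' hm (hi x)
      rw [e x, e y, sub_sub_sub_cancel_right] at h
      rw [abs_sub_comm]
      refine h.trans (le_of_eq ?_)
      rw [dist_comm y x]
      ring)
  filter_upwards [h] with z hz
  rw [Real.sqrt_le_iff]
  exact ⟨mul_nonneg (by positivity) (hJ z), hz⟩

/-- the constant of `k1` -/
noncomputable def ck1 (n : ℕ) (A Γ : ℝ) : ℝ :=
  Γ * (cG n A (4 * A ^ 2) 0 * Real.exp A * cF n A Γ) ^ 2 * cG n A Γ 0

/-- pointwise bound of the gradient of `P_s g` around a centre `y` -/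
theorem Γ_P_le_far [BorelSpace M] [SecondCountableTopology M]
    (hfin : ∀ (x : M) (r : ℝ), m (Metric.ball x r) < ∞)
    {Γ s t : ℝ} (y : M) (hs : 0 < s) (h1 : 16 * A ^ 4 * s ≤ t) (h2 : t ≤ Γ * s) (h3 : t ≤ 1 / 2)
    {g : M →ₘ[m] ℝ} (hg : MemLp g 2 m) (a : ℝ) :
    ∀ᵐ z ∂m, √((sob m).Γ ((sob m).P s g) ((sob m).P s g) z) ≤
      (cG n A (4 * A ^ 2) 0 * Real.exp A * cF n A Γ / √s * Real.exp (4 * A * dist y o)) *
        Real.exp (4 * A * dist y z ^ 2 / t) * pt m p t (fun w => |g w - a|) y := by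
  have hA := hk.one_le
  have hA0 := hk.pos
  have hA2 : 1 ≤ A ^ 2 := one_le_pow₀ hA
  have q0 : 0 < √s := Real.sqrt_pos.2 hs
  have ht : 0 < t := lt_of_lt_of_le (by positivity) h1
  set s₁ := 4 * A ^ 2 * s with hs₁
  have hs10 : 0 < s₁ := by positivity
  have e1 : 4 * A ^ 2 * s₁ = 16 * A ^ 4 * s := by rw [hs₁]; ring
  have h1' : 4 * A ^ 2 * s₁ ≤ t := by rw [e1]; exact h1
  have h4 : s₁ ≤ 1 / 2 := (hk.le_of_time hs10 h1').trans h3
  have h5 : t ≤ Γ * s₁ := by
    have hΓ : 0 ≤ Γ := by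
      by_contra hc
      rw [not_le] at hc
      nlinarith
    have : s ≤ s₁ := hk.le_of_time hs le_rfl
    exact h2.trans (mul_le_mul_of_nonneg_left this hΓ)
  have hm : AEStronglyMeasurable (fun z => g z - a) m := hg.1.sub aestronglyMeasurable_const
  have hi : Integrable (fun z => p t y z * (g z - a)) m := by
    have := (pt_int hp ht y hg).sub ((hp.int t ht y).mul_const a)
    refine this.congr (Eventually.of_forall fun z => ?_)
    simp only [Pi.sub_apply]
    ring
  have hΓ : 0 < Γ := by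
    by_contra hc
    rw [not_lt] at hc
    nlinarith
  have c1 : 0 < cG n A (4 * A ^ 2) 0 := cG_pos hA (by positivity)
  have c2 : 0 < cF n A Γ := cF_pos hA hΓ
  have J0 : 0 ≤ pt m p t (fun w => |g w - a|) y :=
    pt_nonneg hp ht y (Eventually.of_forall fun z => abs_nonneg _)
  filter_upwards [grad_P_sub_le hC hp hk hfin (Γ := 4 * A ^ 2) (s := s) (s' := s₁) hs le_rfl le_rfl
    h4 hg a] with z hz
  have f := (pt_far hp hk y z hs10 h1' h5 h3 hm hi).2
  have t3 : dist z o ≤ dist y z + dist y o := by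
    have := dist_triangle z y o
    rwa [dist_comm z y] at this
  have t4 : 2 * A * dist y z ≤ A * dist y z ^ 2 / t + A := by
    have e : A * dist y z ^ 2 / t + A * t - 2 * A * dist y z = A * (dist y z - t) ^ 2 / t := by
      field_simp
      ring
    have : 0 ≤ A * (dist y z - t) ^ 2 / t := by positivity
    have : A * t ≤ A := mul_le_of_le_one_right hA0.le (by linarith)
    linarith
  have t5 : Real.exp (2 * A * dist z o) ≤ Real.exp (2 * A * dist y o) *
      (Real.exp (A * dist y z ^ 2 / t) * Real.exp A) := by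
    rw [← Real.exp_add, ← Real.exp_add]
    apply Real.exp_le_exp.2
    nlinarith
  have e2 : Real.exp (4 * A * dist y z ^ 2 / t) =
      Real.exp (A * dist y z ^ 2 / t) * Real.exp (3 * A * dist y z ^ 2 / t) := by
    rw [← Real.exp_add]; congr 1; ring
  have e3 : Real.exp (4 * A * dist y o) = Real.exp (2 * A * dist y o) * Real.exp (2 * A * dist y o) := by
    rw [← Real.exp_add]; congr 1; ring
  have J1 : 0 ≤ pt m p s₁ (fun w => |g w - a|) z :=
    pt_nonneg hp hs10 z (Eventually.of_forall fun z => abs_nonneg _)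
  refine hz.trans ?_
  calc cG n A (4 * A ^ 2) 0 / √s * Real.exp (2 * A * dist z o) *
        pt m p s₁ (fun w => |g w - a|) z
      ≤ cG n A (4 * A ^ 2) 0 / √s * (Real.exp (2 * A * dist y o) *
        (Real.exp (A * dist y z ^ 2 / t) * Real.exp A)) *
        (cF n A Γ * Real.exp (2 * A * dist y o) * Real.exp (3 * A * dist y z ^ 2 / t) *
          pt m p t (fun w => |g w - a|) y) := by gcongr
    _ = _ := by rw [e2, e3]; ring

/-- **(k1)** of helper655: `P_s |∇P_s g|² (y) ≤ (C/t) (P_t |g - a| (y))²` -/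
theorem k1 [BorelSpace M] [SecondCountableTopology M]
    (hfin : ∀ (x : M) (r : ℝ), m (Metric.ball x r) < ∞)
    {Γ s t : ℝ} (y : M) (hs : 0 < s) (h1 : 16 * A ^ 4 * s ≤ t) (h2 : t ≤ Γ * s) (h3 : t ≤ 1 / 2)
    {g : M →ₘ[m] ℝ} (hg : MemLp g 2 m) (a : ℝ) :
    Integrable (fun z => p s y z * (sob m).Γ ((sob m).P s g) ((sob m).P s g) z) m ∧
    I (ph m p s y * (sob m).Γ ((sob m).P s g) ((sob m).P s g)) ≤
      ck1 n A Γ * Real.exp (10 * A * dist y o) * (pt m p t (fun w => |g w - a|) y / √t) ^ 2 := by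
  have hD := hC.toIsDir
  have hA := hk.one_le
  have hA0 := hk.pos
  have hA2 : 1 ≤ A ^ 2 := one_le_pow₀ hA
  have hA4 : A ^ 2 ≤ A ^ 4 := pow_le_pow_right₀ hA (by norm_num)
  have q0 : 0 < √s := Real.sqrt_pos.2 hs
  have ht : 0 < t := lt_of_lt_of_le (by positivity) h1
  have qs : √s ^ 2 = s := Real.sq_sqrt hs.le
  have qt : √t ^ 2 = t := Real.sq_sqrt ht.le
  have hΓ : 0 < Γ := by
    by_contra hc
    rw [not_lt] at hc
    nlinarith
  have hst : 4 * A ^ 2 * s ≤ t := by nlinarith
  set B := cG n A (4 * A ^ 2) 0 * Real.exp A * cF n A Γ with hB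
  have B0 : 0 < B := by
    have c1 : 0 < cG n A (4 * A ^ 2) 0 := cG_pos hA (by positivity)
    have c2 : 0 < cF n A Γ := cF_pos hA hΓ
    positivity
  set J := pt m p t (fun w => |g w - a|) y with hJ
  have J0 : 0 ≤ J := pt_nonneg hp ht y (Eventually.of_forall fun z => abs_nonneg _)
  set G := (sob m).Γ ((sob m).P s g) ((sob m).P s g) with hG
  have hW := hD.P_mem hs hg
  have hfar := Γ_P_le_far hC hp hk hfin y hs h1 h2 h3 hg a
  have hb : ∀ᵐ z ∂m, G z ≤ (B ^ 2 / s * Real.exp (8 * A * dist y o) * J ^ 2) *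
      Real.exp (dist y z ^ 2 / (2 * A * s)) := by
    filter_upwards [hfar, hD.Γ_nonneg_ae hW] with z a1 a2
    have b1 : G z = √(G z) ^ 2 := (Real.sq_sqrt a2).symm
    have b2 : √(G z) ^ 2 ≤ ((B / √s * Real.exp (4 * A * dist y o)) *
        Real.exp (4 * A * dist y z ^ 2 / t) * J) ^ 2 := pow_le_pow_left₀ (Real.sqrt_nonneg _) a1 2
    have b3 : ((B / √s * Real.exp (4 * A * dist y o)) *
        Real.exp (4 * A * dist y z ^ 2 / t) * J) ^ 2 = (B ^ 2 / s * Real.exp (8 * A * dist y o) *
        J ^ 2) * Real.exp (8 * A * dist y z ^ 2 / t) := by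
      have x0 : ∀ r : ℝ, Real.exp r ^ 2 = Real.exp (2 * r) := fun r => by
        rw [pow_two, ← Real.exp_add]; congr 1; ring
      have x1 : Real.exp (8 * A * dist y o) = Real.exp (4 * A * dist y o) ^ 2 := by
        rw [x0]; congr 1; ring
      have x2 : Real.exp (8 * A * dist y z ^ 2 / t) = Real.exp (4 * A * dist y z ^ 2 / t) ^ 2 := by
        rw [x0]; congr 1; ring
      rw [x1, x2, mul_pow, mul_pow, mul_pow, div_pow, qs]
      ring
    have b4 : Real.exp (8 * A * dist y z ^ 2 / t) ≤ Real.exp (dist y z ^ 2 / (2 * A * s)) := by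
      apply Real.exp_le_exp.2
      rw [div_le_div_iff₀ ht (by positivity)]
      have : 16 * A ^ 2 * s ≤ t := by nlinarith
      have d0 := sq_nonneg (dist y z)
      nlinarith
    rw [b1]
    refine b2.trans (b3.le.trans ?_)
    gcongr
  obtain ⟨gi, gm⟩ := pt_gauss_moment hp hk y hs hst h3
  set c := B ^ 2 / s * Real.exp (8 * A * dist y o) * J ^ 2 with hc
  have hint : Integrable (fun z => p s y z * G z) m := by
    refine (gi.const_mul c).mono' ((ph_meas hp hs y).mul G.aestronglyMeasurable) ?_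
    filter_upwards [hb, hD.Γ_nonneg_ae hW] with z a1 a2
    have p0 := hp.nonneg s hs y z
    rw [Real.norm_eq_abs, abs_of_nonneg (mul_nonneg p0 a2)]
    calc p s y z * G z ≤ p s y z * (c * Real.exp (dist y z ^ 2 / (2 * A * s))) := by gcongr
      _ = _ := by ring
  refine ⟨hint, ?_⟩
  rw [I_ph_mul hp hs]
  have h5 : pt m p s G y ≤ c * pt m p s (fun z => Real.exp (dist y z ^ 2 / (2 * A * s))) y := by
    unfold pt
    rw [← integral_const_mul]
    refine integral_mono_ae hint (gi.const_mul c) ?_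
    filter_upwards [hb] with z a1
    have p0 := hp.nonneg s hs y z
    calc p s y z * G z ≤ p s y z * (c * Real.exp (dist y z ^ 2 / (2 * A * s))) := by gcongr
      _ = _ := by ring
  have hc0 : 0 ≤ c := by positivity
  have h6 : cG n A (t / s) 0 ≤ cG n A Γ 0 := by
    unfold cG
    have : t / s ≤ Γ := by rw [div_le_iff₀ hs]; exact h2
    gcongr
  calc pt m p s G y ≤ c * pt m p s (fun z => Real.exp (dist y z ^ 2 / (2 * A * s))) y := h5
    _ ≤ c * (cG n A (t / s) 0 * Real.exp (2 * A * dist y o)) := by gcongr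
    _ ≤ c * (cG n A Γ 0 * Real.exp (2 * A * dist y o)) := by gcongr
    _ = (B ^ 2 * cG n A Γ 0) * (Real.exp (8 * A * dist y o) * Real.exp (2 * A * dist y o)) *
        (J ^ 2 / s) := by rw [hc]; ring
    _ ≤ (B ^ 2 * cG n A Γ 0) * (Real.exp (8 * A * dist y o) * Real.exp (2 * A * dist y o)) *
        (Γ * (J ^ 2 / t)) := by
        have c3 : 0 < cG n A Γ 0 := cG_pos hA hΓ
        have : J ^ 2 / s ≤ Γ * (J ^ 2 / t) := by
          rw [← mul_div_assoc, div_le_div_iff₀ hs ht]
          nlinarith [sq_nonneg J]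
        gcongr
    _ = ck1 n A Γ * Real.exp (10 * A * dist y o) * (J / √t) ^ 2 := by
        rw [div_pow, qt, ← Real.exp_add]
        unfold ck1
        rw [← hB]
        have : 8 * A * dist y o + 2 * A * dist y o = 10 * A * dist y o := by ring
        rw [this]
        ring

end k1

end Vale.Agent.P242.H990
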