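import Mathlib

set_option linter.all false

/-! P242, package F-CONS (helper990), part 1: consequences of two sided Gaussian bounds of a
kernel, no calculus. All constants are uniform in the point, with an exponential weight. -/

open MeasureTheory Filter Topology Set Real

namespace Vale.Agent.P242.H990

variable {M : Type*} [MetricSpace M]

/-- Gaussian bounds of a kernel for times `≤ 1/2`, with an exponential weight. -/
structure KB (n : ℕ) (o : M) (A : ℝ) (p : ℝ → M → M → ℝ) : Prop where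
  one_le : 1 ≤ A
  upper : ∀ s, 0 < s → s ≤ 1 / 2 → ∀ x z,
    p s x z ≤ A * exp (A * dist x o) * (√s ^ n)⁻¹ * exp (-(dist x z ^ 2 / (A * s)))
  lower : ∀ s, 0 < s → s ≤ 1 / 2 → ∀ x z,
    A⁻¹ * exp (-(A * dist x o)) * (√s ^ n)⁻¹ * exp (-(A * dist x z ^ 2 / s)) ≤ p s x z
  lip : ∀ s, 0 < s → s ≤ 1 / 2 → ∀ x x' z, dist x x' ≤ √s →
    |p s x z - p s x' z| ≤ A * exp (A * dist x o) * (dist x x' / √s) * (√s ^ n)⁻¹ *
      exp (-(dist x z ^ 2 / (A * s)))

/-- the constant of `gauss_le` -/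
noncomputable def cG (n : ℕ) (A Γ C₀ : ℝ) : ℝ := A ^ 2 * √Γ ^ n * exp (A * C₀ + C₀ ^ 2)

theorem cG_pos {n : ℕ} {A Γ C₀ : ℝ} (hA : 1 ≤ A) (hΓ : 0 < Γ) : 0 < cG n A Γ C₀ := by
  unfold cG
  have : 0 < √Γ := Real.sqrt_pos.2 hΓ
  positivity

namespace KB

variable {n : ℕ} {o : M} {A : ℝ} {p : ℝ → M → M → ℝ}

theorem pos (h : KB n o A p) : 0 < A := lt_of_lt_of_le one_pos h.one_le

theorem p_pos (h : KB n o A p) {s : ℝ} (hs : 0 < s) (hs1 : s ≤ 1 / 2) (x z : M) : 0 < p s x z := by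
  refine lt_of_lt_of_le ?_ (h.lower s hs hs1 x z)
  have := h.pos
  have : 0 < √s := Real.sqrt_pos.2 hs
  positivity

/-- A Gaussian at scale `√s` is dominated by the kernel at a later time and a nearby point. -/
theorem gauss_le (h : KB n o A p) {Γ C₀ s s' : ℝ} {x x' z : M} (hs : 0 < s)
    (h1 : 4 * A ^ 2 * s ≤ s') (h2 : s' ≤ Γ * s) (h3 : s' ≤ 1 / 2) (hx : dist x x' ≤ C₀ * √s) :
    exp (dist x z ^ 2 / (2 * A * s)) *
      (A * exp (A * dist x o) * (√s ^ n)⁻¹ * exp (-(dist x z ^ 2 / (A * s)))) ≤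
      cG n A Γ C₀ * exp (2 * A * dist x o) * p s' x' z := by
  have hA := h.one_le
  have hA0 := h.pos
  have hs' : 0 < s' := lt_of_lt_of_le (by positivity) h1
  have hΓ0 : 0 < Γ := by
    by_contra hc
    rw [not_lt] at hc
    nlinarith
  have hA2 : 1 ≤ A ^ 2 := one_le_pow₀ hA
  have hss' : s ≤ s' := by nlinarith
  have hs1 : s ≤ 1 / 2 := hss'.trans h3
  have q0 : 0 < √s := Real.sqrt_pos.2 hs
  have q1 : √s ≤ 1 := by simpa using Real.sqrt_le_sqrt (show s ≤ 1 by linarith)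
  have qs : √s ^ 2 = s := Real.sq_sqrt hs.le
  have hC0 : 0 ≤ C₀ := by
    have : 0 ≤ C₀ * √s := dist_nonneg.trans hx
    by_contra hc
    rw [not_le] at hc
    nlinarith
  have low := h.lower s' hs' h3 x' z
  set d := dist x z with hd
  have hd0 : 0 ≤ d := dist_nonneg
  -- distances
  have t1 : dist x' z ≤ C₀ * √s + d := by
    calc dist x' z ≤ dist x' x + dist x z := dist_triangle _ _ _
      _ ≤ C₀ * √s + d := by rw [dist_comm x' x]; linarith
  have t2 : dist x' z ^ 2 ≤ 2 * d ^ 2 + 2 * C₀ ^ 2 * s := by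
    have a : dist x' z ^ 2 ≤ (C₀ * √s + d) ^ 2 := pow_le_pow_left₀ dist_nonneg t1 2
    nlinarith [sq_nonneg (C₀ * √s - d)]
  have t3 : dist x' o ≤ C₀ + dist x o := by
    calc dist x' o ≤ dist x' x + dist x o := dist_triangle _ _ _
      _ ≤ C₀ * √s + dist x o := by rw [dist_comm x' x]; linarith
      _ ≤ C₀ + dist x o := by nlinarith
  -- the exponent
  have t4 : A * dist x' z ^ 2 / s' ≤ d ^ 2 / (2 * A * s) + C₀ ^ 2 := by
    have a1 : A * dist x' z ^ 2 / s' ≤ A * (2 * d ^ 2 + 2 * C₀ ^ 2 * s) / (4 * A ^ 2 * s) := by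
      gcongr
    have a2 : A * (2 * d ^ 2 + 2 * C₀ ^ 2 * s) / (4 * A ^ 2 * s)
        = d ^ 2 / (2 * A * s) + C₀ ^ 2 / (2 * A) := by
      field_simp
      ring
    have a3 : C₀ ^ 2 / (2 * A) ≤ C₀ ^ 2 := by
      apply div_le_self (sq_nonneg _)
      linarith
    linarith
  have t5 : (√s ^ n)⁻¹ ≤ √Γ ^ n * (√s' ^ n)⁻¹ := by
    have b1 : √s' ≤ √Γ * √s := by
      rw [← Real.sqrt_mul hΓ0.le]
      exact Real.sqrt_le_sqrt h2
    have b2 : √s' ^ n ≤ √Γ ^ n * √s ^ n := by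
      rw [← mul_pow]
      exact pow_le_pow_left₀ (Real.sqrt_nonneg _) b1 n
    have b3 : 0 < √s' ^ n := pow_pos (Real.sqrt_pos.2 hs') n
    have b4 : 0 < √s ^ n := pow_pos q0 n
    rw [← div_eq_mul_inv, le_div_iff₀ b3, inv_mul_le_iff₀ b4]
    linarith
  have e1 : exp (d ^ 2 / (2 * A * s)) * exp (-(d ^ 2 / (A * s))) = exp (-(d ^ 2 / (2 * A * s))) := by
    rw [← Real.exp_add]
    congr 1
    field_simp
    ring
  have e2 : exp (-(d ^ 2 / (2 * A * s))) ≤ exp (C₀ ^ 2) * exp (-(A * dist x' z ^ 2 / s')) := by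
    rw [← Real.exp_add]
    apply Real.exp_le_exp.2
    linarith
  have e3 : exp (A * dist x o) ≤ exp (2 * A * dist x o) * (exp (A * C₀) * exp (-(A * dist x' o))) := by
    rw [← Real.exp_add, ← Real.exp_add]
    apply Real.exp_le_exp.2
    nlinarith
  have low' : (√s' ^ n)⁻¹ * (exp (-(A * dist x' o)) * exp (-(A * dist x' z ^ 2 / s'))) ≤
      A * p s' x' z := by
    have c1 : A * (A⁻¹ * exp (-(A * dist x' o)) * (√s' ^ n)⁻¹ * exp (-(A * dist x' z ^ 2 / s')))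
        ≤ A * p s' x' z := mul_le_mul_of_nonneg_left low hA0.le
    have c2 : A * (A⁻¹ * exp (-(A * dist x' o)) * (√s' ^ n)⁻¹ * exp (-(A * dist x' z ^ 2 / s')))
        = (√s' ^ n)⁻¹ * (exp (-(A * dist x' o)) * exp (-(A * dist x' z ^ 2 / s'))) := by
      field_simp
    rwa [c2] at c1
  calc exp (d ^ 2 / (2 * A * s)) * (A * exp (A * dist x o) * (√s ^ n)⁻¹ * exp (-(d ^ 2 / (A * s))))
      = A * (√s ^ n)⁻¹ * exp (A * dist x o) * (exp (d ^ 2 / (2 * A * s)) *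
        exp (-(d ^ 2 / (A * s)))) := by ring
    _ = A * (√s ^ n)⁻¹ * exp (A * dist x o) * exp (-(d ^ 2 / (2 * A * s))) := by rw [e1]
    _ ≤ A * (√Γ ^ n * (√s' ^ n)⁻¹) * (exp (2 * A * dist x o) * (exp (A * C₀) *
        exp (-(A * dist x' o)))) * (exp (C₀ ^ 2) * exp (-(A * dist x' z ^ 2 / s'))) := by
        gcongr
    _ = A * √Γ ^ n * (exp (A * C₀) * exp (C₀ ^ 2)) * exp (2 * A * dist x o) *
        ((√s' ^ n)⁻¹ * (exp (-(A * dist x' o)) * exp (-(A * dist x' z ^ 2 / s')))) := by ring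
    _ ≤ A * √Γ ^ n * (exp (A * C₀) * exp (C₀ ^ 2)) * exp (2 * A * dist x o) * (A * p s' x' z) := by
        gcongr
    _ = cG n A Γ C₀ * exp (2 * A * dist x o) * p s' x' z := by
        unfold cG
        rw [Real.exp_add]
        ring

/-- (K4), (K5) for the kernel, exponential weight -/
theorem exp_mul_p_le (h : KB n o A p) {Γ C₀ s s' : ℝ} {x x' z : M} (hs : 0 < s)
    (h1 : 4 * A ^ 2 * s ≤ s') (h2 : s' ≤ Γ * s) (h3 : s' ≤ 1 / 2) (hx : dist x x' ≤ C₀ * √s) :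
    exp (dist x z ^ 2 / (2 * A * s)) * p s x z ≤
      cG n A Γ C₀ * exp (2 * A * dist x o) * p s' x' z := by
  have hA := h.one_le
  have hA2 : 1 ≤ A ^ 2 := one_le_pow₀ hA
  have hs1 : s ≤ 1 / 2 := by nlinarith
  refine le_trans ?_ (h.gauss_le hs h1 h2 h3 hx)
  exact mul_le_mul_of_nonneg_left (h.upper s hs hs1 x z) (Real.exp_pos _).le

/-- (K5) for the kernel -/
theorem p_le (h : KB n o A p) {Γ C₀ s s' : ℝ} {x x' z : M} (hs : 0 < s)
    (h1 : 4 * A ^ 2 * s ≤ s') (h2 : s' ≤ Γ * s) (h3 : s' ≤ 1 / 2) (hx : dist x x' ≤ C₀ * √s) :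
    p s x z ≤ cG n A Γ C₀ * exp (2 * A * dist x o) * p s' x' z := by
  have hA := h.one_le
  have hA0 := h.pos
  have hA2 : 1 ≤ A ^ 2 := one_le_pow₀ hA
  have hs1 : s ≤ 1 / 2 := by nlinarith
  refine le_trans ?_ (h.exp_mul_p_le (z := z) hs h1 h2 h3 hx)
  have := h.p_pos hs hs1 x z
  have : 1 ≤ exp (dist x z ^ 2 / (2 * A * s)) := Real.one_le_exp (by positivity)
  nlinarith

/-- (K1b) for the kernel, exponential weight -/
theorem exp_mul_lip_le (h : KB n o A p) {Γ C₀ s s' : ℝ} {x x' y z : M} (hs : 0 < s)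
    (h1 : 4 * A ^ 2 * s ≤ s') (h2 : s' ≤ Γ * s) (h3 : s' ≤ 1 / 2) (hx : dist x y ≤ C₀ * √s)
    (hxx : dist x x' ≤ √s) :
    exp (dist x z ^ 2 / (2 * A * s)) * |p s x z - p s x' z| ≤
      cG n A Γ C₀ * exp (2 * A * dist x o) * (dist x x' / √s) * p s' y z := by
  have hA := h.one_le
  have hA2 : 1 ≤ A ^ 2 := one_le_pow₀ hA
  have hs1 : s ≤ 1 / 2 := by nlinarith
  have q0 : 0 < √s := Real.sqrt_pos.2 hs
  have l := h.lip s hs hs1 x x' z hxx
  have g := h.gauss_le (z := z) hs h1 h2 h3 hx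
  have r0 : 0 ≤ dist x x' / √s := div_nonneg dist_nonneg q0.le
  calc exp (dist x z ^ 2 / (2 * A * s)) * |p s x z - p s x' z|
      ≤ exp (dist x z ^ 2 / (2 * A * s)) * (A * exp (A * dist x o) * (dist x x' / √s) *
        (√s ^ n)⁻¹ * exp (-(dist x z ^ 2 / (A * s)))) :=
        mul_le_mul_of_nonneg_left l (Real.exp_pos _).le
    _ = (dist x x' / √s) * (exp (dist x z ^ 2 / (2 * A * s)) *
      (A * exp (A * dist x o) * (√s ^ n)⁻¹ * exp (-(dist x z ^ 2 / (A * s))))) := by ring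
    _ ≤ (dist x x' / √s) * (cG n A Γ C₀ * exp (2 * A * dist x o) * p s' y z) :=
        mul_le_mul_of_nonneg_left g r0
    _ = _ := by ring

end KB

/-! ### weights -/

/-- the constant of `pow_le_exp` -/
noncomputable def cW (A : ℝ) (N : ℕ) : ℝ := (N.factorial : ℝ) * exp (1 + A)

theorem one_add_pow_le (N : ℕ) {t : ℝ} (ht : 0 ≤ t) : (1 + t) ^ N ≤ N.factorial * exp (1 + t) := by
  have h := Real.pow_div_factorial_le_exp (x := 1 + t) (by linarith) N
  have hN : (0 : ℝ) < N.factorial := by exact_mod_cast N.factorial_pos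
  rw [div_le_iff₀ hN] at h
  linarith

/-- the weight `(1 + d/√s)^N` -/
theorem pow_le_exp (N : ℕ) {A s d : ℝ} (hA : 0 < A) (hs : 0 < s) (hd : 0 ≤ d) :
    (1 + d / √s) ^ N ≤ cW A N * exp (d ^ 2 / (4 * A * s)) := by
  have q0 : 0 < √s := Real.sqrt_pos.2 hs
  have h := one_add_pow_le N (t := d / √s) (by positivity)
  have qs : √s ^ 2 = s := Real.sq_sqrt hs.le
  have h1 : d / √s ≤ A + d ^ 2 / (4 * A * s) := by
    have e : d ^ 2 / (4 * A * s) = (d / √s) ^ 2 / (4 * A) := by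
      rw [div_pow, qs]
      field_simp
    rw [e]
    have : 0 ≤ (d / √s - 2 * A) ^ 2 / (4 * A) := by positivity
    have e2 : (d / √s - 2 * A) ^ 2 / (4 * A) = (d / √s) ^ 2 / (4 * A) - d / √s + A := by
      field_simp
      ring
    linarith
  unfold cW
  calc (1 + d / √s) ^ N ≤ N.factorial * exp (1 + d / √s) := h
    _ ≤ N.factorial * exp (1 + (A + d ^ 2 / (4 * A * s))) := by gcongr
    _ = N.factorial * exp (1 + A) * exp (d ^ 2 / (4 * A * s)) := by
        rw [← add_assoc, Real.exp_add]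
        ring

/-- the weight `exp (c d)` -/
theorem exp_le_exp_weight {A s d c : ℝ} (hA : 0 < A) (hs : 0 < s) (hs1 : s ≤ 1) :
    exp (c * d) ≤ exp (A * c ^ 2) * exp (d ^ 2 / (4 * A * s)) := by
  rw [← Real.exp_add]
  apply Real.exp_le_exp.2
  have h1 : c * d ≤ A * c ^ 2 * s + d ^ 2 / (4 * A * s) := by
    have : 0 ≤ (2 * A * s * c - d) ^ 2 / (4 * A * s) := by positivity
    have e : (2 * A * s * c - d) ^ 2 / (4 * A * s) = A * c ^ 2 * s + d ^ 2 / (4 * A * s) - c * d := by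
      field_simp
      ring
    linarith
  have h2 : A * c ^ 2 * s ≤ A * c ^ 2 := mul_le_of_le_one_right (by positivity) hs1
  linarith

theorem cW_pos {A : ℝ} {N : ℕ} : 0 < cW A N := by
  unfold cW
  have hN : (0 : ℝ) < N.factorial := by exact_mod_cast N.factorial_pos
  positivity

/-- both weights together -/
theorem weight_le (N : ℕ) {A s d c : ℝ} (hA : 0 < A) (hs : 0 < s) (hs1 : s ≤ 1) (hd : 0 ≤ d) :
    (1 + d / √s) ^ N * exp (c * d) ≤ cW A N * exp (A * c ^ 2) * exp (d ^ 2 / (2 * A * s)) := by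
  have h1 := pow_le_exp N hA hs hd
  have h2 := exp_le_exp_weight (d := d) (c := c) hA hs hs1
  have e : exp (d ^ 2 / (2 * A * s)) = exp (d ^ 2 / (4 * A * s)) * exp (d ^ 2 / (4 * A * s)) := by
    rw [← Real.exp_add]
    congr 1
    field_simp
    ring
  have := cW_pos (A := A) (N := N)
  calc (1 + d / √s) ^ N * exp (c * d)
      ≤ (cW A N * exp (d ^ 2 / (4 * A * s))) * (exp (A * c ^ 2) * exp (d ^ 2 / (4 * A * s))) := by
        gcongr
    _ = _ := by rw [e]; ring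

end Vale.Agent.P242.H990

namespace Vale.Agent.P242.H990

theorem rpow_neg_half {s : ℝ} (hs : 0 ≤ s) (n : ℕ) : s ^ (-((n : ℝ) / 2)) = (√s ^ n)⁻¹ := by
  rw [Real.rpow_neg hs, Real.sqrt_eq_rpow, ← Real.rpow_natCast, ← Real.rpow_mul hs]
  congr 2
  ring

end Vale.Agent.P242.H990
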