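import Vale.Agent.P242.H990.Ph
import Vale.Agent.P242.H937.Grad1

/-! P242, package F-CONS (helper990): the Poincaré inequality (K7) of the heat flow,
`P_t |f - P_t f(x)| (x) ≤ C √t P_t |∇f| (x)`. -/

set_option linter.all false

open MeasureTheory Filter Topology Set
open scoped ENNReal NNReal

universe u

namespace Vale.Agent.P242.H990

open Vale.Agent.P233 Vale.Agent.P242.H520 Vale.Agent.P242.H937

section abstract

variable {M : Type*} [MeasurableSpace M] {m : Measure M} {C : Calc m}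

theorem mul_polar (a b : M →ₘ[m] ℝ) : (a + b) ^ 2 - (a - b) ^ 2 = (4 : ℝ) • (a * b) := by
  have h : (4 : ℝ) • (a * b) = a * b + a * b + (a * b) + (a * b) := by module
  rw [h]; ring

theorem Γ_polar (hD : IsDir C) {a b : M →ₘ[m] ℝ} (ha : a ∈ C.W) (hb : b ∈ C.W) :
    C.Γ (a + b) (a + b) - C.Γ (a - b) (a - b) = (4 : ℝ) • C.Γ a b := by
  have h1 := hD.Γ_expand 1 ha hb
  have h2 := hD.Γ_expand (-1) ha hb
  rw [one_smul] at h1
  have e : a + (-1 : ℝ) • b = a - b := by module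
  rw [e] at h2
  rw [h1, h2]
  module

/-- derivative of `s ↦ ∫ P_s g P_{t-s} f P_{t-s} ψ` -/
theorem hasDeriv_PPP (hD : IsDir C) {s t : ℝ} {f g ψ : M →ₘ[m] ℝ}
    (hg : MemLp g 2 m) (hgt : MemLp g ∞ m) (hf : MemLp f 2 m) (hft : MemLp f ∞ m)
    (hψ : MemLp ψ 2 m) (hψt : MemLp ψ ∞ m) (hs : 0 < s) (hst : s < t) :
    HasDerivAt (fun s => I (C.P s g * (C.P (t - s) f * C.P (t - s) ψ)))
      (2 * I (C.P s g * C.Γ (C.P (t - s) f) (C.P (t - s) ψ))) s := by
  have h1 := hD.hasDeriv_PP hg hgt (mem_add hf hψ) (mem_add hft hψt) hs hst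
  have h2 := hD.hasDeriv_PP hg hgt (mem_sub hf hψ) (mem_sub hft hψt) hs hst
  have h3 := (h1.sub h2).const_mul (4 : ℝ)⁻¹
  have hts : 0 < t - s := by linarith
  -- value of the derivative
  have e1 : (4 : ℝ)⁻¹ * (2 * I (C.P s g * C.Γ (C.P (t - s) (f + ψ)) (C.P (t - s) (f + ψ))) -
      2 * I (C.P s g * C.Γ (C.P (t - s) (f - ψ)) (C.P (t - s) (f - ψ)))) =
      2 * I (C.P s g * C.Γ (C.P (t - s) f) (C.P (t - s) ψ)) := by
    have w1 := hD.P_mem hts hf
    have w2 := hD.P_mem hts hψ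
    have gt := hD.P_memTop hs.le hg hgt
    rw [hD.P_add _ hf hψ, hD.P_sub _ hf hψ, ← mul_sub,
      ← I_sub (mem_mul_top gt (hD.mem1 _ (hD.add_mem _ w1 _ w2)))
        (mem_mul_top gt (hD.mem1 _ (hD.sub_mem w1 w2))), ← mul_sub, Γ_polar hD w1 w2,
      mul_smul_comm, I_smul]
    ring
  rw [e1] at h3
  refine h3.congr_of_eventuallyEq ?_
  filter_upwards [lt_mem_nhds hs, gt_mem_nhds hst] with r hr hrt
  have htr : 0 ≤ t - r := by linarith
  have gt := hD.P_memTop hr.le hg hgt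
  have m1 := hD.P_mem2 (t - r) hf
  have m2 := hD.P_mem2 (t - r) hψ
  simp only [Pi.sub_apply]
  rw [hD.P_add _ hf hψ, hD.P_sub _ hf hψ,
    ← I_sub (mem_mul_top gt (mem_sq (mem_add m1 m2))) (mem_mul_top gt (mem_sq (mem_sub m1 m2))),
    ← mul_sub, mul_polar, mul_smul_comm, I_smul]
  ring

theorem continuous_PPP (hD : IsDir C) {t : ℝ} {f g ψ : M →ₘ[m] ℝ}
    (hg : MemLp g 2 m) (hgt : MemLp g ∞ m) (hf : MemLp f 2 m) (hft : MemLp f ∞ m)
    (hψ : MemLp ψ 2 m) (hψt : MemLp ψ ∞ m) :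
    Continuous (fun s => I (C.P s g * (C.P (t - s) f * C.P (t - s) ψ))) := by
  have h1 := hD.continuous_PP (t := t) hg (mem_add hf hψ) (mem_add hft hψt)
  have h2 := hD.continuous_PP (t := t) hg (mem_sub hf hψ) (mem_sub hft hψt)
  have h3 := (h1.sub h2).const_smul (4 : ℝ)⁻¹
  refine h3.congr fun r => ?_
  have gt : MemLp (C.P r g) ∞ m := by
    have := hD.P_memTop (abs_nonneg r) hg hgt
    rwa [hD.P_abs r hg] at this
  have m1 := hD.P_mem2 (t - r) hf
  have m2 := hD.P_mem2 (t - r) hψ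
  show (4 : ℝ)⁻¹ * (I (C.P r g * C.P (t - r) (f + ψ) ^ 2) -
    I (C.P r g * C.P (t - r) (f - ψ) ^ 2)) = _
  rw [hD.P_add _ hf hψ, hD.P_sub _ hf hψ,
    ← I_sub (mem_mul_top gt (mem_sq (mem_add m1 m2))) (mem_mul_top gt (mem_sq (mem_sub m1 m2))),
    ← mul_sub, mul_polar, mul_smul_comm, I_smul]
  ring

variable (hC : IsGamma C) {κ : ℝ} (hB : C.BEi κ) [SigmaFinite m]
include hC hB

/-- bound of the derivative -/
theorem I_Γ_PP_le {s t : ℝ} {f g ψ : M →ₘ[m] ℝ} (hg : MemLp g 2 m) (hgt : MemLp g ∞ m)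
    (hg0 : 0 ≤ g) (hf : f ∈ C.W) (hψ : MemLp ψ 2 m) (hψ1 : ∀ᵐ x ∂m, |ψ x| ≤ 1) (hs : 0 ≤ s)
    (hst : s < t) :
    I (C.P s g * C.Γ (C.P (t - s) f) (C.P (t - s) ψ)) ≤
      Real.exp (2 * |κ| * t) / √(2 * (t - s)) * I (g * C.P t (rt (C.Γ f f))) := by
  have hD := hC.toIsDir
  set r := t - s with hr
  have hr0 : 0 < r := by linarith
  have w1 := hD.P_memW r hf
  have w2 := hD.P_mem hr0 hψ
  have mr := rt_mem2 (hD.nonneg _ hf) (hD.mem1 _ hf)
  have h1 := strong_grad_ae hC hB hr0.le hf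
  have h2 := IsGamma.P_gradB hC hB hr0 hψ hψ1
  have h3 := hD.Γ_abs_ae w1 w2
  have hP0 := nonneg_iff_ae.1 (hD.P_nonneg hs hg hg0)
  have hR0 := nonneg_iff_ae.1 (hD.P_nonneg hr0.le mr (rt_nonneg _))
  have gt := hD.P_memTop hs hg hgt
  set c := Real.exp (2 * |κ| * t) / √(2 * r) with hc
  have key : C.P s g * C.Γ (C.P r f) (C.P r ψ) ≤ c • (C.P s g * C.P r (rt (C.Γ f f))) := by
    rw [le_iff_ae]
    filter_upwards [h1, h2, h3, hP0, hR0, mul_ae (C.P s g) (C.Γ (C.P r f) (C.P r ψ)),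
      smul_ae (C.P s g * C.P r (rt (C.Γ f f))) c, mul_ae (C.P s g) (C.P r (rt (C.Γ f f)))]
      with x a1 a2 a3 a4 a5 a6 a7 a8
    rw [a6, a7, a8]
    have b1 : √(C.Γ (C.P r ψ) (C.P r ψ) x) ≤ Real.exp (|κ| * r) / √(2 * r) := by
      refine Real.sqrt_le_iff.2 ⟨by positivity, a2.trans (le_of_eq ?_)⟩
      rw [div_pow, Real.sq_sqrt (by positivity), one_pow, mul_one, ← Real.exp_nat_mul]
      congr 2
      push_cast
      ring
    have b2 : C.Γ (C.P r f) (C.P r ψ) x ≤ c * C.P r (rt (C.Γ f f)) x := by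
      calc C.Γ (C.P r f) (C.P r ψ) x ≤ |C.Γ (C.P r f) (C.P r ψ) x| := le_abs_self _
        _ ≤ √(C.Γ (C.P r f) (C.P r f) x) * √(C.Γ (C.P r ψ) (C.P r ψ) x) := a3
        _ ≤ (Real.exp (-(κ * r)) * C.P r (rt (C.Γ f f)) x) * (Real.exp (|κ| * r) / √(2 * r)) := by
          gcongr
        _ = Real.exp (-(κ * r) + |κ| * r) / √(2 * r) * C.P r (rt (C.Γ f f)) x := by
          rw [Real.exp_add]; ring
        _ ≤ c * C.P r (rt (C.Γ f f)) x := by
          rw [hc]
          have : -(κ * r) + |κ| * r ≤ 2 * |κ| * t := by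
            have e1 : -κ ≤ |κ| := neg_le_abs κ
            have e2 : 0 ≤ |κ| := abs_nonneg κ
            have e3 : -(κ * r) ≤ |κ| * r := by nlinarith
            have e4 : |κ| * r ≤ |κ| * t := by
              apply mul_le_mul_of_nonneg_left _ e2
              linarith
            linarith
          gcongr
    calc C.P s g x * C.Γ (C.P r f) (C.P r ψ) x
        ≤ C.P s g x * (c * C.P r (rt (C.Γ f f)) x) := mul_le_mul_of_nonneg_left b2 a4
      _ = c * (C.P s g x * C.P r (rt (C.Γ f f)) x) := by ring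
  have h5 := I_mono (mem_mul_top gt (hD.Γ_mem1 w1 w2))
    (mem_smul c (mem_mul_22 (hD.P_mem2 s hg) (hD.P_mem2 r mr))) key
  rw [I_smul] at h5
  have h6 : I (C.P s g * C.P r (rt (C.Γ f f))) = I (g * C.P t (rt (C.Γ f f))) := by
    rw [hD.P_symm s hg (hD.P_mem2 r mr), hD.P_P hs hr0.le mr]
    congr 3
    rw [hr]; ring
  rwa [h6] at h5

/-- weak form -/
theorem cov_weak {t : ℝ} {f g ψ : M →ₘ[m] ℝ} (ht : 0 < t) (hg : MemLp g 2 m) (hgt : MemLp g ∞ m)
    (hg0 : 0 ≤ g) (hf : f ∈ C.W) (hft : MemLp f ∞ m) (hψ : MemLp ψ 2 m)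
    (hψ1 : ∀ᵐ x ∂m, |ψ x| ≤ 1) :
    I (g * (C.P t (f * ψ) - C.P t f * C.P t ψ)) ≤
      2 * Real.exp (2 * |κ| * t) * √(2 * t) * I (g * C.P t (rt (C.Γ f f))) := by
  have hD := hC.toIsDir
  have hf2 := hD.memLp _ hf
  have hψt : MemLp ψ ∞ m := mem_top_iff.2 ⟨1, hψ1⟩
  set J := I (g * C.P t (rt (C.Γ f f))) with hJ
  set E := Real.exp (2 * |κ| * t) with hE
  set Φ : ℝ → ℝ := fun s => I (C.P s g * (C.P (t - s) f * C.P (t - s) ψ)) with hΦ
  set H : ℝ → ℝ := fun s => Φ s + 2 * E * J * √(2 * (t - s)) with hH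
  have hcont : ContinuousOn H (Icc 0 t) := by
    refine ((continuous_PPP hD hg hgt hf2 hft hψ hψt).add ?_).continuousOn
    fun_prop
  have hder : ∀ s ∈ Ioo 0 t, HasDerivAt H
      (2 * I (C.P s g * C.Γ (C.P (t - s) f) (C.P (t - s) ψ)) +
        2 * E * J * (-(√(2 * (t - s)))⁻¹)) s := by
    intro s hs
    have h1 := hasDeriv_PPP hD hg hgt hf2 hft hψ hψt hs.1 hs.2
    have hts : 0 < 2 * (t - s) := by linarith [hs.2]
    have h2 : HasDerivAt (fun s : ℝ => 2 * (t - s)) (-2) s := by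
      have := ((hasDerivAt_id s).const_sub t).const_mul 2
      simpa using this
    have h3 := (h2.sqrt hts.ne').const_mul (2 * E * J)
    have e : -2 / (2 * √(2 * (t - s))) = -(√(2 * (t - s)))⁻¹ := by
      have : 0 < √(2 * (t - s)) := Real.sqrt_pos.2 hts
      field_simp
    rw [e] at h3
    exact h1.add h3
  have hanti : AntitoneOn H (Icc 0 t) := by
    refine antitoneOn_of_deriv_nonpos (convex_Icc 0 t) hcont ?_ ?_
    · intro s hs
      rw [interior_Icc] at hs
      exact (hder s hs).differentiableAt.differentiableWithinAt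
    · intro s hs
      rw [interior_Icc] at hs
      rw [(hder s hs).deriv]
      have h := I_Γ_PP_le hC hB hg hgt hg0 hf hψ hψ1 hs.1.le hs.2
      have e : E / √(2 * (t - s)) * J = E * J * (√(2 * (t - s)))⁻¹ := by ring
      rw [← hE, ← hJ, e] at h
      linarith
  have h := hanti (left_mem_Icc.2 ht.le) (right_mem_Icc.2 ht.le) ht.le
  simp only [hH, hΦ, sub_self, sub_zero, mul_zero, Real.sqrt_zero, add_zero] at h
  rw [hD.P_zero_time hf2, hD.P_zero_time hψ, hD.P_zero_time hg] at h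
  have m1 : MemLp (f * ψ : M →ₘ[m] ℝ) 2 m := mem_mul_top hft hψ
  have e1 : I (C.P t g * (f * ψ)) = I (g * C.P t (f * ψ)) := hD.P_symm t hg m1
  have mft := hD.P_memTop ht.le hf2 hft
  rw [mul_sub, I_sub (mem_mul_22 hg (hD.P_mem2 t m1))
    (mem_mul_22 hg (mem_mul_top mft (hD.P_mem2 t hψ)))]
  rw [e1] at h
  linarith

/-- almost everywhere form -/
theorem cov_ae {t : ℝ} {f ψ : M →ₘ[m] ℝ} (ht : 0 < t)
    (hf : f ∈ C.W) (hft : MemLp f ∞ m) (hψ : MemLp ψ 2 m) (hψ1 : ∀ᵐ x ∂m, |ψ x| ≤ 1) :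
    ∀ᵐ x ∂m, C.P t (f * ψ) x - C.P t f x * C.P t ψ x ≤
      2 * Real.exp (2 * |κ| * t) * √(2 * t) * C.P t (rt (C.Γ f f)) x := by
  have hD := hC.toIsDir
  have hf2 := hD.memLp _ hf
  set c := 2 * Real.exp (2 * |κ| * t) * √(2 * t) with hc
  have mr := rt_mem2 (hD.nonneg _ hf) (hD.mem1 _ hf)
  have m1 : MemLp (f * ψ : M →ₘ[m] ℝ) 2 m := mem_mul_top hft hψ
  have mft := hD.P_memTop ht.le hf2 hft
  have m2 : MemLp (C.P t (f * ψ) - C.P t f * C.P t ψ : M →ₘ[m] ℝ) 2 m :=
    mem_sub (hD.P_mem2 t m1) (mem_mul_top mft (hD.P_mem2 t hψ))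
  have m3 : MemLp (c • C.P t (rt (C.Γ f f))) 2 m := mem_smul c (hD.P_mem2 t mr)
  have key := le_const_of_forall2 (F := (C.P t (f * ψ) - C.P t f * C.P t ψ) -
    c • C.P t (rt (C.Γ f f))) (mem_sub m2 m3) le_rfl (by
    intro g h0 h2 h1 htop
    have h := cov_weak hC hB ht h2 htop h0 hf hft hψ hψ1
    rw [zero_mul, sub_mul, I_sub (mem_mul_22 m2 h2) (mem_mul_22 m3 h2), smul_mul_assoc, I_smul,
      mul_comm _ g, mul_comm (C.P t (rt (C.Γ f f))) g]
    linarith)
  filter_upwards [key, sub_ae (C.P t (f * ψ) - C.P t f * C.P t ψ) (c • C.P t (rt (C.Γ f f))),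
    sub_ae (C.P t (f * ψ)) (C.P t f * C.P t ψ), mul_ae (C.P t f) (C.P t ψ),
    smul_ae (C.P t (rt (C.Γ f f))) c] with x a1 a2 a3 a4 a5
  rw [a2, a3, a4, a5] at a1
  linarith

end abstract

section ptwise

variable {M : Type u} [MetricSpace M] [MeasurableSpace M] [BorelSpace M] {m : Measure M}
  [m.IsOpenPosMeasure] [SigmaFinite m] {p : ℝ → M → M → ℝ}
  (hfin : ∀ (x : M) (r : ℝ), m (Metric.ball x r) < ∞)
  (hC : IsGamma (sob m)) {κ : ℝ} (hB : (sob m).BEi κ) (hp : Ker0 m p)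
  {t : ℝ} {f : M →ₘ[m] ℝ}

include hC hB hp in
/-- covariance, everywhere -/
theorem cov_pt (ht : 0 < t) (hf : f ∈ (sob m).W) (hft : MemLp f ∞ m) {ψ : M → ℝ}
    (hψ : MemLp ψ 2 m) (hψ1 : ∀ z, |ψ z| ≤ 1) (x : M) :
    pt m p t (fun z => f z * ψ z) x - pt m p t f x * pt m p t ψ x ≤
      2 * Real.exp (2 * |κ| * t) * √(2 * t) * pt m p t (rt ((sob m).Γ f f)) x := by
  have hD := hC.toIsDir
  have hf2 := hD.memLp _ hf
  set ψ' : M →ₘ[m] ℝ := AEEqFun.mk ψ hψ.1 with hψ'
  have e1 : ⇑ψ' =ᵐ[m] ψ := AEEqFun.coeFn_mk ψ hψ.1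
  have h2 : MemLp ψ' 2 m := (memLp_congr_ae e1).2 hψ
  have h1 : ∀ᵐ x ∂m, |ψ' x| ≤ 1 := by
    filter_upwards [e1] with z hz
    rw [hz]; exact hψ1 z
  have e2 : ⇑(f * ψ' : M →ₘ[m] ℝ) =ᵐ[m] fun z => f z * ψ z := by
    filter_upwards [mul_ae f ψ', e1] with z a b
    rw [a, b]
  have m1 : MemLp (f * ψ' : M →ₘ[m] ℝ) 2 m := mem_mul_top hft h2
  have m1' : MemLp (fun z => f z * ψ z) 2 m := (memLp_congr_ae e2).1 m1
  have mr := rt_mem2 (hD.nonneg _ hf) (hD.mem1 _ hf)
  refine le_of_ae_le (m := m) (u := fun x => pt m p t (fun z => f z * ψ z) x -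
    pt m p t f x * pt m p t ψ x) (v := fun x => 2 * Real.exp (2 * |κ| * t) * √(2 * t) *
    pt m p t (rt ((sob m).Γ f f)) x) ?_ ?_ ?_ x
  · exact (hp.contf t ht _ m1').sub ((hp.contf t ht _ hf2).mul (hp.contf t ht _ hψ))
  · exact continuous_const.mul (hp.contf t ht _ mr)
  · filter_upwards [cov_ae hC hB ht hf hft h2 h1, hp.rep t ht _ m1, hp.rep t ht _ hf2,
      hp.rep t ht _ h2, hp.rep t ht _ mr] with z a1 a2 a3 a4 a5
    rw [a2, a3, a4, a5] at a1
    rw [pt_congr hp e2, pt_congr hp e1] at a1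
    exact a1

include hfin hC hB hp in
/-- (K7) for bounded functions -/
theorem poinc_bdd (ht : 0 < t) (hf : f ∈ (sob m).W) (hft : MemLp f ∞ m) (x : M) :
    pt m p t (fun z => |f z - pt m p t f x|) x ≤
      2 * Real.exp (2 * |κ| * t) * √(2 * t) * pt m p t (rt ((sob m).Γ f f)) x := by
  have hD := hC.toIsDir
  have hf2 := hD.memLp _ hf
  set c := pt m p t f x with hc
  set R := 2 * Real.exp (2 * |κ| * t) * √(2 * t) * pt m p t (rt ((sob m).Γ f f)) x with hR
  have hfm : Measurable (f : M → ℝ) := f.measurable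
  have hS : MeasurableSet {z | c ≤ f z} := measurableSet_le measurable_const hfm
  set σ : M → ℝ := fun z => {z | c ≤ f z}.indicator (fun _ => (2 : ℝ)) z - 1 with hσ
  have hσm : Measurable σ := (measurable_const.indicator hS).sub measurable_const
  have hσ1 : ∀ z, |σ z| ≤ 1 ∧ (f z - c) * σ z = |f z - c| := by
    intro z
    simp only [hσ]
    by_cases hz : z ∈ {z | c ≤ f z}
    · rw [indicator_of_mem hz]
      have : 0 ≤ f z - c := sub_nonneg.2 hz
      rw [abs_of_nonneg this]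
      norm_num
    · rw [indicator_of_notMem hz]
      have : f z - c < 0 := sub_neg.2 (not_le.1 hz)
      rw [abs_of_neg this]
      norm_num
  have i1 : Integrable (fun z => p t x z * f z) m := pt_int hp ht x hf2
  have i2 : Integrable (fun z => p t x z * (f z - c)) m := by
    have := i1.sub ((hp.int t ht x).mul_const c)
    refine this.congr (Eventually.of_forall fun z => ?_)
    simp only [Pi.sub_apply]
    ring
  have i3 : Integrable (fun z => p t x z * |f z - c|) m := by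
    refine i2.abs.congr (Eventually.of_forall fun z => ?_)
    show |p t x z * (f z - c)| = _
    rw [abs_mul, abs_of_nonneg (hp.nonneg t ht x z)]
  have key : ∀ k : ℕ, ∫ z, (Metric.ball x k).indicator (fun z => p t x z * |f z - c|) z ∂m ≤ R := by
    intro k
    set ψ : M → ℝ := (Metric.ball x k).indicator σ with hψ
    have hψ1 : ∀ z, |ψ z| ≤ 1 := by
      intro z
      simp only [hψ]
      by_cases hz : z ∈ Metric.ball x (k : ℝ)
      · rw [indicator_of_mem hz]; exact (hσ1 z).1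
      · rw [indicator_of_notMem hz, abs_zero]; exact zero_le_one
    have hψ2 : MemLp ψ 2 m := by
      have h1 : MemLp ((Metric.ball x (k : ℝ)).indicator fun _ => (1 : ℝ)) 2 m :=
        memLp_indicator_const 2 Metric.isOpen_ball.measurableSet 1 (Or.inr (hfin x k).ne)
      refine h1.mono (hσm.indicator Metric.isOpen_ball.measurableSet).aestronglyMeasurable
        (Eventually.of_forall fun z => ?_)
      simp only [hψ]
      by_cases hz : z ∈ Metric.ball x (k : ℝ)
      · rw [indicator_of_mem hz, indicator_of_mem hz]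
        simpa using (hσ1 z).1
      · rw [indicator_of_notMem hz, indicator_of_notMem hz]
    have h := cov_pt hC hB hp ht hf hft hψ2 hψ1 x
    rw [← hR, ← hc] at h
    refine le_trans (le_of_eq ?_) h
    have j1 : Integrable (fun z => p t x z * (f z * ψ z)) m := by
      refine i1.mono ((ph_meas hp ht x).mul (hf2.1.mul hψ2.1)) (Eventually.of_forall fun z => ?_)
      rw [Real.norm_eq_abs, Real.norm_eq_abs, ← mul_assoc, abs_mul]
      exact mul_le_of_le_one_right (abs_nonneg _) (hψ1 z)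
    have j2 : Integrable (fun z => p t x z * ψ z) m := pt_int hp ht x hψ2
    have e : pt m p t (fun z => f z * ψ z) x - c * pt m p t ψ x =
        ∫ z, (p t x z * (f z * ψ z) - c * (p t x z * ψ z)) ∂m := by
      unfold pt
      rw [integral_sub j1 (j2.const_mul c), integral_const_mul]
    rw [e]
    refine integral_congr_ae (Eventually.of_forall fun z => ?_)
    simp only [hψ]
    by_cases hz : z ∈ Metric.ball x (k : ℝ)
    · rw [indicator_of_mem hz, indicator_of_mem hz, ← (hσ1 z).2]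
      ring
    · rw [indicator_of_notMem hz, indicator_of_notMem hz]
      ring
  have hlim : Tendsto (fun k : ℕ => ∫ z, (Metric.ball x k).indicator
      (fun z => p t x z * |f z - c|) z ∂m) atTop (𝓝 (∫ z, p t x z * |f z - c| ∂m)) := by
    refine tendsto_integral_of_dominated_convergence (fun z => p t x z * |f z - c|)
      (fun k => i3.aestronglyMeasurable.indicator Metric.isOpen_ball.measurableSet) i3
      (fun k => Eventually.of_forall fun z => ?_) (Eventually.of_forall fun z => ?_)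
    · have h0 : 0 ≤ p t x z * |f z - c| := mul_nonneg (hp.nonneg t ht x z) (abs_nonneg _)
      by_cases hz : z ∈ Metric.ball x (k : ℝ)
      · rw [indicator_of_mem hz, Real.norm_eq_abs, abs_of_nonneg h0]
      · rw [indicator_of_notMem hz, norm_zero]; exact h0
    · obtain ⟨k0, hk0⟩ := exists_nat_gt (dist z x)
      refine tendsto_const_nhds.congr' ?_
      filter_upwards [eventually_ge_atTop k0] with k hk
      have hz : z ∈ Metric.ball x (k : ℝ) := by
        rw [Metric.mem_ball]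
        exact hk0.trans_le (by exact_mod_cast hk)
      rw [indicator_of_mem hz]
  exact le_of_tendsto' hlim key

include hfin hC hB hp in
/-- **(K7)** the Poincaré inequality of the heat flow at every point -/
theorem poinc_rt (ht : 0 < t) (hf : f ∈ (sob m).W) (x : M) :
    pt m p t (fun z => |f z - pt m p t f x|) x ≤
      2 * Real.exp (2 * |κ| * t) * √(2 * t) * pt m p t (rt ((sob m).Γ f f)) x := by
  have hD := hC.toIsDir
  have hf2 := hD.memLp _ hf
  obtain ⟨u, uA, u1, u2, u3⟩ := hD.exists_trunc hf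
  have hTW : (sob m).TW u f := ⟨fun n => (uA n).1, hf, u2⟩
  have hr := rt_T2 hD hTW
  have hR := (T2.const (ph_mem2 hp ht x)).mul_lim hr
  have hR' : Tendsto (fun n => pt m p t (rt ((sob m).Γ (u n) (u n))) x) atTop
      (𝓝 (pt m p t (rt ((sob m).Γ f f)) x)) := by
    rw [← I_ph_mul hp ht]
    refine hR.congr fun n => ?_
    rw [I_ph_mul hp ht]
  have i1 : Integrable (fun z => p t x z * f z) m := pt_int hp ht x hf2
  have hc : Tendsto (fun n => pt m p t (u n) x) atTop (𝓝 (pt m p t f x)) := by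
    unfold pt
    refine tendsto_integral_of_dominated_convergence (fun z => |p t x z * f z|)
      (fun n => (ph_meas hp ht x).mul (hD.memLp _ (uA n).1).1) i1.abs (fun n => ?_) ?_
    · filter_upwards [u1 n] with z hz
      rw [Real.norm_eq_abs, abs_mul, abs_mul]
      gcongr
    · filter_upwards [u3] with z hz
      exact hz.const_mul _
  obtain ⟨B, hB'⟩ := hc.abs.bddAbove_range
  have hB'' : ∀ n, |pt m p t (u n) x| ≤ B := fun n => hB' ⟨n, rfl⟩
  have hL : Tendsto (fun n => pt m p t (fun z => |u n z - pt m p t (u n) x|) x) atTop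
      (𝓝 (pt m p t (fun z => |f z - pt m p t f x|) x)) := by
    unfold pt
    refine tendsto_integral_of_dominated_convergence (fun z => |p t x z * f z| + B * p t x z)
      (fun n => ?_) (i1.abs.add ((hp.int t ht x).const_mul B)) (fun n => ?_) ?_
    · have h1 : AEStronglyMeasurable (fun z => u n z - ∫ z', p t x z' * u n z' ∂m) m :=
        (hD.memLp _ (uA n).1).1.sub aestronglyMeasurable_const
      exact (ph_meas hp ht x).mul (by simpa using h1.norm)
    · filter_upwards [u1 n] with z hz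
      have p0 := hp.nonneg t ht x z
      rw [Real.norm_eq_abs, abs_mul, abs_abs, abs_mul, abs_of_nonneg p0]
      have h1 : |u n z - ∫ (z : M), p t x z * u n z ∂m| ≤ |f z| + B := by
        have h2 := hB'' n
        unfold pt at h2
        exact (abs_sub _ _).trans (add_le_add hz h2)
      calc p t x z * |u n z - ∫ (z : M), p t x z * u n z ∂m| ≤ p t x z * (|f z| + B) :=
            mul_le_mul_of_nonneg_left h1 p0
        _ = _ := by ring
    · filter_upwards [u3] with z hz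
      exact (hz.sub hc).abs.const_mul _
  exact le_of_tendsto_of_tendsto' hL (hR'.const_mul _)
    (fun n => poinc_bdd hfin hC hB hp ht (uA n).1 (uA n).2 x)

include hfin hC hB hp in
theorem poinc (ht : 0 < t) (hf : f ∈ (sob m).W) (x : M) :
    pt m p t (fun z => |f z - pt m p t f x|) x ≤
      2 * Real.exp (2 * |κ| * t) * √(2 * t) * pt m p t (fun z => √((sob m).Γ f f z)) x := by
  have h := poinc_rt hfin hC hB hp ht hf x
  rwa [pt_congr hp (rt_ae ((sob m).Γ f f))] at h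

end ptwise

end Vale.Agent.P242.H990
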