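import Vale.Agent.P233.N2.Slope
import Vale.Agent.P233.H589.Lat

/-! P242, package F-CONS (helper990): the carre du champ of a locally Lipschitz Sobolev function is at
most the square of its local Lipschitz constant. -/

set_option linter.all false

open MeasureTheory Filter Topology Set Metric
open scoped ENNReal NNReal

universe u

namespace Vale.Agent.P242.H990

open Vale.Agent.P233

variable {M : Type u} [MetricSpace M]

/-- Lipschitz on balls -/
def LipOnBalls (u : M → ℝ) : Prop :=
  ∀ (x₀ : M) (R : ℝ), ∃ L : ℝ, ∀ x ∈ ball x₀ R, ∀ y ∈ ball x₀ R, |u x - u y| ≤ L * dist x y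

/-- cut-off function -/
noncomputable def ctf (o : M) (R : ℝ) (x : M) : ℝ := max 0 (min 1 (R + 1 - dist x o))

theorem ctf_nonneg (o : M) (R : ℝ) (x : M) : 0 ≤ ctf o R x := le_max_left _ _

theorem ctf_le_one (o : M) (R : ℝ) (x : M) : ctf o R x ≤ 1 :=
  max_le zero_le_one (min_le_left _ _)

theorem ctf_eq_one {o : M} {R : ℝ} {x : M} (h : dist x o ≤ R) : ctf o R x = 1 := by
  unfold ctf
  rw [min_eq_left (by linarith), max_eq_right zero_le_one]

theorem ctf_eq_zero {o : M} {R : ℝ} {x : M} (h : R + 1 ≤ dist x o) : ctf o R x = 0 := by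
  unfold ctf
  rw [max_eq_left]
  exact (min_le_right _ _).trans (by linarith)

theorem ctf_lip (o : M) (R : ℝ) (x y : M) : |ctf o R x - ctf o R y| ≤ dist x y := by
  unfold ctf
  have h1 := abs_max_sub_max_le_abs (min 1 (R + 1 - dist x o)) (min 1 (R + 1 - dist y o)) 0
  rw [max_comm _ (0 : ℝ), max_comm _ (0 : ℝ)] at h1
  refine h1.trans ?_
  have h2 := abs_min_sub_min_le_max 1 (R + 1 - dist x o) 1 (R + 1 - dist y o)
  refine h2.trans (max_le (by simp) ?_)
  have e : R + 1 - dist x o - (R + 1 - dist y o) = dist y o - dist x o := by ring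
  rw [e, abs_sub_comm]
  exact abs_dist_sub_le x y o

theorem ctf_mul_lip {u : M → ℝ} (hu : LipOnBalls u) (o : M) {R : ℝ} (hR : 0 ≤ R) :
    ∃ L : ℝ≥0, LipschitzWith L fun x => ctf o R x * u x := by
  obtain ⟨L₀, hL₀⟩ := hu o (R + 3)
  set L := max L₀ 0 with hLd
  have hL0 : 0 ≤ L := le_max_right _ _
  have hL : ∀ x ∈ ball o (R + 3), ∀ y ∈ ball o (R + 3), |u x - u y| ≤ L * dist x y :=
    fun x hx y hy => (hL₀ x hx y hy).trans (by gcongr; exact le_max_left _ _)
  set B := |u o| + L * (R + 3) with hB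
  have hB0 : 0 ≤ B := by positivity
  have hub : ∀ x ∈ ball o (R + 3), |u x| ≤ B := by
    intro x hx
    have h1 := hL x hx o (mem_ball_self (by linarith))
    have h2 : dist x o < R + 3 := hx
    have h3 : |u x| ≤ |u o| + |u x - u o| := by
      have := abs_add_le (u o) (u x - u o)
      rwa [add_sub_cancel] at this
    calc |u x| ≤ |u o| + |u x - u o| := h3
      _ ≤ |u o| + L * dist x o := by linarith
      _ ≤ B := by rw [hB]; gcongr
  have key : ∀ x y : M, x ∈ ball o (R + 3) → |ctf o R x * u x - ctf o R y * u y| ≤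
      (L + B) * dist x y := by
    intro x y hx
    by_cases hy : y ∈ ball o (R + 3)
    · have e : ctf o R x * u x - ctf o R y * u y =
          ctf o R x * (u x - u y) + (ctf o R x - ctf o R y) * u y := by ring
      rw [e]
      refine (abs_add_le _ _).trans ?_
      rw [abs_mul, abs_mul, abs_of_nonneg (ctf_nonneg o R x)]
      have a1 : ctf o R x * |u x - u y| ≤ 1 * (L * dist x y) :=
        mul_le_mul (ctf_le_one o R x) (hL x hx y hy) (abs_nonneg _) zero_le_one
      have a2 : |ctf o R x - ctf o R y| * |u y| ≤ dist x y * B :=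
        mul_le_mul (ctf_lip o R x y) (hub y hy) (abs_nonneg _) dist_nonneg
      linarith
    · have hy' : R + 3 ≤ dist y o := not_lt.1 hy
      rw [ctf_eq_zero (show R + 1 ≤ dist y o by linarith), zero_mul, sub_zero]
      rcases le_or_gt (R + 1) (dist x o) with h | h
      · rw [ctf_eq_zero h, zero_mul, abs_zero]
        positivity
      · have hd : 1 ≤ dist x y := by
          have := dist_triangle_left y o x
          linarith
        rw [abs_mul, abs_of_nonneg (ctf_nonneg o R x)]
        calc ctf o R x * |u x| ≤ 1 * B := mul_le_mul (ctf_le_one o R x) (hub x hx) (abs_nonneg _)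
              zero_le_one
          _ ≤ (L + B) * dist x y := by nlinarith
  refine ⟨Real.toNNReal (L + B), ?_⟩
  refine LipschitzWith.of_dist_le_mul fun x y => ?_
  rw [Real.dist_eq, Real.coe_toNNReal _ (by positivity)]
  by_cases hx : x ∈ ball o (R + 3)
  · exact key x y hx
  · by_cases hy : y ∈ ball o (R + 3)
    · rw [abs_sub_comm, dist_comm]
      exact key y x hy
    · have hx' : R + 3 ≤ dist x o := not_lt.1 hx
      have hy' : R + 3 ≤ dist y o := not_lt.1 hy
      rw [ctf_eq_zero (show R + 1 ≤ dist y o by linarith),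
        ctf_eq_zero (show R + 1 ≤ dist x o by linarith), zero_mul, zero_mul, sub_zero, abs_zero]
      positivity

theorem lipAt_congr' {u v : M → ℝ} {x : M} (h : ∀ᶠ y in 𝓝 x, u y = v y) :
    lipAt u x = lipAt v x := by
  unfold lipAt
  refine Filter.limsup_congr ?_
  have hx : u x = v x := h.self_of_nhds
  filter_upwards [nhdsWithin_le_nhds h] with y hy
  rw [hy, hx]

variable [MeasurableSpace M] [BorelSpace M] {m : Measure M}

theorem LipOnBalls.continuous {u : M → ℝ} (hu : LipOnBalls u) : Continuous u := by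
  rw [continuous_iff_continuousAt]
  intro x
  obtain ⟨L, hL⟩ := hu x 1
  rw [Metric.continuousAt_iff]
  intro ε hε
  refine ⟨min 1 (ε / (|L| + 1)), by positivity, fun {y} hy => ?_⟩
  have h1 : dist y x < 1 := hy.trans_le (min_le_left _ _)
  have h2 : dist y x < ε / (|L| + 1) := hy.trans_le (min_le_right _ _)
  have h3 := hL y h1 x (mem_ball_self one_pos)
  rw [Real.dist_eq]
  calc |u y - u x| ≤ L * dist y x := h3
    _ ≤ |L| * dist y x := by gcongr; exact le_abs_self L
    _ ≤ (|L| + 1) * dist y x := by gcongr; linarith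
    _ < (|L| + 1) * (ε / (|L| + 1)) := by gcongr
    _ = ε := by field_simp

/-- `Γ(f,f) ≤ lip(u)²` for a representative that is Lipschitz on balls -/
theorem Γ_le_lipAt [SecondCountableTopology M]
    (hfin : ∀ (x : M) (r : ℝ), m (Metric.ball x r) < ∞) (hD : IsDir (sob m))
    {f : M →ₘ[m] ℝ} (hf : f ∈ (sob m).W) {u : M → ℝ} (hfu : f =ᵐ[m] u) (hu : LipOnBalls u) :
    ∀ᵐ x ∂m, (sob m).Γ f f x ≤ (lipAt u x).toReal ^ 2 := by
  rcases isEmpty_or_nonempty M with hM | ⟨⟨o⟩⟩
  · exact Eventually.of_forall fun x => (hM.false x).elim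
  have key : ∀ k : ℕ, ∀ᵐ x ∂m, dist x o < k → (sob m).Γ f f x ≤ (lipAt u x).toReal ^ 2 := by
    intro k
    obtain ⟨L, hL⟩ := ctf_mul_lip hu o (R := (k : ℝ)) (Nat.cast_nonneg k)
    set v : M → ℝ := fun x => ctf o k x * u x with hv
    have hsup : ∀ x, (k : ℝ) + 1 ≤ dist o x → v x = 0 := fun x hx => by
      simp only [hv]
      rw [dist_comm] at hx
      rw [ctf_eq_zero hx, zero_mul]
    have h1 := N2.Γ_cl_lip hfin hL hsup
    have hW : cl m v ∈ (sob m).W := H183.cl_mem_W hfin hL hsup
    have h2 := hD.Γ_eq_on hf hW hf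
    have h3 := hD.Γ_eq_on hf hW hW
    have h4 : ⇑(cl m v) =ᵐ[m] v := H183.cl_cont hL.continuous
    have h5 := eq_iff_ae.1 (hD.symm _ hf _ hW)
    filter_upwards [h1, h2, h3, h4, h5, hfu] with x a1 a2 a3 a4 a5 a6 hx
    have hfx : f x = cl m v x := by
      rw [a4, a6]
      simp only [hv]
      rw [ctf_eq_one hx.le, one_mul]
    have e1 : lipAt v x = lipAt u x := by
      refine lipAt_congr' ?_
      have : ball o (k : ℝ) ∈ 𝓝 x := isOpen_ball.mem_nhds hx
      filter_upwards [this] with y hy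
      simp only [hv]
      rw [ctf_eq_one (le_of_lt hy), one_mul]
    rw [e1] at a1
    rw [a2 hfx, ← a5, a3 hfx]
    exact a1
  have h := ae_all_iff.2 key
  filter_upwards [h] with x hx
  obtain ⟨k, hk⟩ := exists_nat_gt (dist x o)
  exact hx k hk

/-- real form -/
theorem Γ_le_of_bound [SecondCountableTopology M]
    (hfin : ∀ (x : M) (r : ℝ), m (Metric.ball x r) < ∞) (hD : IsDir (sob m))
    {f : M →ₘ[m] ℝ} (hf : f ∈ (sob m).W) {u : M → ℝ} (hfu : f =ᵐ[m] u) (hu : LipOnBalls u)
    {c : M → ℝ} (hc : ∀ x, 0 ≤ c x)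
    (h : ∀ x, ∀ᶠ y in 𝓝 x, |u y - u x| ≤ c x * dist y x) :
    ∀ᵐ x ∂m, (sob m).Γ f f x ≤ c x ^ 2 := by
  filter_upwards [Γ_le_lipAt hfin hD hf hfu hu] with x hx
  refine hx.trans ?_
  have h1 : lipAt u x ≤ ENNReal.ofReal (c x) := by
    rw [Met.lipAt_le_ofReal_iff (hc x)]
    intro c' hc'
    filter_upwards [h x] with y hy
    refine hy.trans ?_
    gcongr
  have h2 : (lipAt u x).toReal ≤ c x := by
    have := ENNReal.toReal_mono ENNReal.ofReal_ne_top h1
    rwa [ENNReal.toReal_ofReal (hc x)] at this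
  exact pow_le_pow_left₀ ENNReal.toReal_nonneg h2 2

end Vale.Agent.P242.H990
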