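import Vale.Agent.P242.H990.K
import Vale.Agent.P242.H990.LipG
import Vale.Agent.P242.H990.Poin

/-! P242, package F-CONS (helper990), part 5: consequences of the kernel bounds for functions:
(K1a), (K3), (K4)-(K6), (K1b) for `pt`, two point and two time Poincaré inequality. -/

set_option linter.all false

open MeasureTheory Filter Topology Set
open scoped ENNReal NNReal

universe u

namespace Vale.Agent.P242.H990

open Vale.Agent.P233 Vale.Agent.P242.H520 Vale.Agent.P242.H937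

variable {M : Type u} [MetricSpace M] [MeasurableSpace M] {m : Measure M} {p : ℝ → M → M → ℝ}
  {n : ℕ} {o : M} {A : ℝ}

/-! ### domination by the kernel -/

section dom

variable (hp : Ker0 m p) {s' : ℝ} {x' : M}
include hp

theorem pt_int_abs (hs : 0 < s') {F : M → ℝ} (hi : Integrable (fun z => p s' x' z * F z) m) :
    Integrable (fun z => p s' x' z * |F z|) m := by
  refine hi.abs.congr (Eventually.of_forall fun z => ?_)
  show |p s' x' z * F z| = p s' x' z * |F z|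
  rw [abs_mul, abs_of_nonneg (hp.nonneg s' hs x' z)]

/-- a class dominated by the kernel -/
theorem I_mul_le_of_ker (hs' : 0 < s') {a F : M →ₘ[m] ℝ} {c : ℝ}
    (ha : ∀ᵐ z ∂m, |a z| ≤ c * p s' x' z) (hi : Integrable (fun z => p s' x' z * F z) m) :
    MemLp (a * F : M →ₘ[m] ℝ) 1 m ∧ I |a * F| ≤ c * pt m p s' (fun z => |F z|) x' ∧
      |I (a * F)| ≤ c * pt m p s' (fun z => |F z|) x' := by
  have hia := pt_int_abs hp hs' hi
  have hdom := hia.const_mul c
  have hb : ∀ᵐ z ∂m, ‖(a * F : M →ₘ[m] ℝ) z‖ ≤ c * (p s' x' z * |F z|) := by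
    filter_upwards [ha, mul_ae a F] with z h1 h2
    rw [h2, Real.norm_eq_abs, abs_mul]
    calc |a z| * |F z| ≤ (c * p s' x' z) * |F z| := by gcongr
      _ = _ := by ring
  have hint : Integrable (a * F : M →ₘ[m] ℝ) m := hdom.mono' (a * F).aestronglyMeasurable hb
  have h1 : ∫ z, |(a * F : M →ₘ[m] ℝ) z| ∂m ≤ c * pt m p s' (fun z => |F z|) x' := by
    unfold pt
    rw [← integral_const_mul]
    refine integral_mono_ae hint.abs hdom ?_
    filter_upwards [hb] with z hz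
    simpa using hz
  have e : I |a * F| = ∫ z, |(a * F : M →ₘ[m] ℝ) z| ∂m := by
    unfold I
    exact integral_congr_ae (AEEqFun.coeFn_abs _)
  refine ⟨memLp_one_iff_integrable.2 hint, by rw [e]; exact h1, ?_⟩
  unfold I
  exact (abs_integral_le_integral_abs).trans h1

end dom

/-! ### the bounds of `Int.lean` for `pt` -/

section ptb

variable [OpensMeasurableSpace M] (hp : Ker0 m p) (hk : KB n o A p)
include hp hk

theorem pt_int_early {C₀ s s' : ℝ} {x x' : M} (hs : 0 < s)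
    (h1 : 4 * A ^ 2 * s ≤ s') (h3 : s' ≤ 1 / 2) (hx : dist x x' ≤ C₀ * √s)
    {F : M → ℝ} (hF : AEStronglyMeasurable F m) (hi : Integrable (fun z => p s' x' z * F z) m) :
    Integrable (fun z => p s x z * F z) m :=
  hk.integrable_early (kmeas hp) hs h1 h3 hx hF hi

/-- (K5) -/
theorem pt_harnack {Γ C₀ s s' : ℝ} {x x' : M} (hs : 0 < s)
    (h1 : 4 * A ^ 2 * s ≤ s') (h2 : s' ≤ Γ * s) (h3 : s' ≤ 1 / 2) (hx : dist x x' ≤ C₀ * √s)
    {F : M → ℝ} (hF : AEStronglyMeasurable F m) (hi : Integrable (fun z => p s' x' z * F z) m) :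
    pt m p s (fun z => |F z|) x ≤
      cG n A Γ C₀ * Real.exp (2 * A * dist x o) * pt m p s' (fun z => |F z|) x' :=
  hk.harnack (kmeas hp) hs h1 h2 h3 hx hF hi

/-- (K5) for nonnegative functions -/
theorem pt_harnack' {Γ C₀ s s' : ℝ} {x x' : M} (hs : 0 < s)
    (h1 : 4 * A ^ 2 * s ≤ s') (h2 : s' ≤ Γ * s) (h3 : s' ≤ 1 / 2) (hx : dist x x' ≤ C₀ * √s)
    {F : M → ℝ} (hF : AEStronglyMeasurable F m) (hi : Integrable (fun z => p s' x' z * F z) m)
    (h0 : ∀ᵐ z ∂m, 0 ≤ F z) :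
    pt m p s F x ≤ cG n A Γ C₀ * Real.exp (2 * A * dist x o) * pt m p s' F x' := by
  have h := pt_harnack hp hk hs h1 h2 h3 hx hF hi
  have e : (fun z => |F z|) =ᵐ[m] F := by
    filter_upwards [h0] with z hz
    exact abs_of_nonneg hz
  rwa [pt_congr hp e, pt_congr hp e] at h

/-- (K4) -/
theorem pt_weight {Γ C₀ s s' : ℝ} {x x' : M} (hs : 0 < s)
    (h1 : 4 * A ^ 2 * s ≤ s') (h2 : s' ≤ Γ * s) (h3 : s' ≤ 1 / 2) (hx : dist x x' ≤ C₀ * √s)
    {F : M → ℝ} (hF : AEStronglyMeasurable F m) (hi : Integrable (fun z => p s' x' z * F z) m)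
    (N : ℕ) (c : ℝ) :
    Integrable (fun z => p s x z * ((1 + dist x z / √s) ^ N * Real.exp (c * dist x z) * F z)) m ∧
      pt m p s (fun z => (1 + dist x z / √s) ^ N * Real.exp (c * dist x z) * |F z|) x ≤
        cG n A Γ C₀ * (cW A N * Real.exp (A * c ^ 2)) * Real.exp (2 * A * dist x o) *
          pt m p s' (fun z => |F z|) x' := by
  have h := hk.weight (kmeas hp) hs h1 h2 h3 hx hF hi N c
  refine ⟨h.1.congr (Eventually.of_forall fun z => ?_), le_trans (le_of_eq ?_) h.2⟩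
  · simp only
    ring
  · unfold pt
    refine integral_congr_ae (Eventually.of_forall fun z => ?_)
    simp only
    ring

/-- (K6) -/
theorem pt_tail {Γ C₀ s s' : ℝ} {x x' : M} (hs : 0 < s)
    (h1 : 4 * A ^ 2 * s ≤ s') (h2 : s' ≤ Γ * s) (h3 : s' ≤ 1 / 2) (hx : dist x x' ≤ C₀ * √s)
    {F : M → ℝ} (hF : AEStronglyMeasurable F m) (hi : Integrable (fun z => p s' x' z * F z) m)
    {R : ℝ} (hR : 0 ≤ R) :
    pt m p s ({z | R ≤ dist x z}.indicator fun z => |F z|) x ≤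
        cG n A Γ C₀ * Real.exp (-(R ^ 2 / (2 * A * s))) * Real.exp (2 * A * dist x o) *
          pt m p s' (fun z => |F z|) x' := by
  have h := hk.tail (kmeas hp) hs h1 h2 h3 hx hF hi hR
  refine le_trans (le_of_eq ?_) h
  have hE : MeasurableSet {z | R ≤ dist x z} :=
    measurableSet_le measurable_const (continuous_const.dist continuous_id).measurable
  unfold pt
  rw [← integral_indicator hE]
  refine integral_congr_ae (Eventually.of_forall fun z => ?_)
  by_cases hz : z ∈ {z | R ≤ dist x z}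
  · simp only [indicator_of_mem hz]
  · simp only [indicator_of_notMem hz, mul_zero]

/-- (K1b) -/
theorem pt_lip {Γ C₀ s s' : ℝ} {x x' y : M} (hs : 0 < s)
    (h1 : 4 * A ^ 2 * s ≤ s') (h2 : s' ≤ Γ * s) (h3 : s' ≤ 1 / 2) (hx : dist x y ≤ C₀ * √s)
    (hxx : dist x x' ≤ √s)
    {F : M → ℝ} (hF : AEStronglyMeasurable F m) (hi : Integrable (fun z => p s' y z * F z) m) :
    |pt m p s F x - pt m p s F x'| ≤
      cG n A Γ C₀ * Real.exp (2 * A * dist x o) * (dist x x' / √s) *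
        pt m p s' (fun z => |F z|) y :=
  hk.lip_int (kmeas hp) hs h1 h2 h3 hx hxx hF hi

/-- (K1b) for points at distance at most `C₁ √s` -/
theorem pt_lip' {Γ C₀ C₁ s s' : ℝ} {x x' y : M} (hs : 0 < s)
    (h1 : 4 * A ^ 2 * s ≤ s') (h2 : s' ≤ Γ * s) (h3 : s' ≤ 1 / 2) (hx : dist x y ≤ C₀ * √s)
    (hxx : dist x x' ≤ C₁ * √s) (hΓ : 0 < Γ) (hC₀ : 0 ≤ C₀) (hC₁ : 0 ≤ C₁)
    {F : M → ℝ} (hF : AEStronglyMeasurable F m) (hi : Integrable (fun z => p s' y z * F z) m) :
    |pt m p s F x - pt m p s F x'| ≤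
      2 * Real.exp (2 * A * C₁) * cG n A Γ (C₀ + C₁) * Real.exp (2 * A * dist x o) *
        (dist x x' / √s) * pt m p s' (fun z => |F z|) y :=
  hk.lip_int' (kmeas hp) hs h1 h2 h3 hx hxx hΓ hC₀ hC₁ hF hi

/-- `pt m p s F` is Lipschitz on balls -/
theorem pt_lipOnBalls {s s' : ℝ} (hs : 0 < s) (h1 : 4 * A ^ 2 * s ≤ s') (h3 : s' ≤ 1 / 2)
    {F : M → ℝ} (hF : AEStronglyMeasurable F m)
    (hi : ∀ y, Integrable (fun z => p s' y z * F z) m) : LipOnBalls (pt m p s F) := by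
  intro x₀ R
  have hA := hk.one_le
  have hA0 := hk.pos
  have q0 : 0 < √s := Real.sqrt_pos.2 hs
  have hs' : 0 < s' := lt_of_lt_of_le (by positivity) h1
  have h2 : s' ≤ (s' / s) * s := by rw [div_mul_cancel₀ _ hs.ne']
  set C₀ : ℝ := |R| / √s with hC₀
  set C₁ : ℝ := 2 * |R| / √s with hC₁
  refine ⟨2 * Real.exp (2 * A * C₁) * cG n A (s' / s) (C₀ + C₁) *
    Real.exp (2 * A * (|R| + dist x₀ o)) * (1 / √s) * pt m p s' (fun z => |F z|) x₀, ?_⟩
  intro x hx y hy
  have hx' : dist x x₀ ≤ |R| := (le_of_lt hx).trans (le_abs_self R)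
  have hy' : dist y x₀ ≤ |R| := (le_of_lt hy).trans (le_abs_self R)
  have hxy : dist x y ≤ 2 * |R| := by
    have := dist_triangle_right x y x₀
    linarith
  have h := pt_lip' hp hk (x := x) (x' := y) (y := x₀) hs h1 h2 h3 (C₀ := C₀) (C₁ := C₁)
    (by rw [hC₀, div_mul_cancel₀ _ q0.ne']; exact hx')
    (by rw [hC₁, div_mul_cancel₀ _ q0.ne']; exact hxy) (by positivity) (by positivity)
    (by positivity) hF (hi x₀)
  have hxo : dist x o ≤ |R| + dist x₀ o := by
    have := dist_triangle x x₀ o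
    linarith
  have hJ : 0 ≤ pt m p s' (fun z => |F z|) x₀ :=
    pt_nonneg hp hs' x₀ (Eventually.of_forall fun z => abs_nonneg _)
  have hc : 0 < cG n A (s' / s) (C₀ + C₁) := cG_pos hA (by positivity)
  refine h.trans ?_
  calc 2 * Real.exp (2 * A * C₁) * cG n A (s' / s) (C₀ + C₁) * Real.exp (2 * A * dist x o) *
        (dist x y / √s) * pt m p s' (fun z => |F z|) x₀
      ≤ 2 * Real.exp (2 * A * C₁) * cG n A (s' / s) (C₀ + C₁) *
        Real.exp (2 * A * (|R| + dist x₀ o)) *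
        (dist x y / √s) * pt m p s' (fun z => |F z|) x₀ := by gcongr
    _ = _ := by ring

end ptb

/-! ### functionals with centre `x` -/

section fun_bounds

variable (hC : IsGamma (sob m)) (hp : Ker0 m p) (hk : KB n o A p)
include hC hp hk

/-- the constant of the Laplacian bounds -/
noncomputable def cL (n : ℕ) (N K A Γ C₀ : ℝ) : ℝ := 6 * (N + 1) * Real.exp |K| * cK n A Γ C₀

/-- the constant of the gradient bounds -/
noncomputable def cD (n : ℕ) (κ A Γ C₀ : ℝ) : ℝ := Real.exp |κ| * cK n A Γ C₀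

omit hC hp in
theorem ker_time {Γ C₀ s s' : ℝ} (hs : 0 < s) (h1 : 512 * A ^ 2 * s ≤ s') (h2 : s' ≤ Γ * s) :
    0 < s' ∧ 0 < Γ ∧ 0 < cK n A Γ C₀ := by
  have hA := hk.one_le
  have hA0 := hk.pos
  have hs' : 0 < s' := lt_of_lt_of_le (by positivity) h1
  have hΓ : 0 < Γ := by
    by_contra hc
    rw [not_lt] at hc
    nlinarith
  exact ⟨hs', hΓ, cK_pos hA hΓ⟩

/-- (KL) without the Gaussian factor -/
theorem ph_lap_le [SigmaFinite m] {K N : ℝ} (hN : 0 < N) (hB : (sob m).BE K N)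
    {Γ C₀ s s' : ℝ} {x x' : M} (hs : 0 < s)
    (h1 : 512 * A ^ 2 * s ≤ s') (h2 : s' ≤ Γ * s) (h3 : s' ≤ 1 / 2) (hx : dist x x' ≤ C₀ * √s) :
    ∀ᵐ z ∂m, |(sob m).lap (ph m p s x) z| ≤
      (cL n N K A Γ C₀ / s * Real.exp (32 * A * dist x o)) * p s' x' z := by
  have hA0 := hk.pos
  obtain ⟨hs', hΓ, hc⟩ := ker_time hk (n := n) (C₀ := C₀) hs h1 h2
  filter_upwards [ph_lap hC hp hk hN hB hs h1 h2 h3 hx] with z hz
  have p0 := hp.nonneg s' hs' x' z
  have e : Real.exp (-(dist x z ^ 2 / (16 * A * s))) * p s' x' z ≤ p s' x' z := by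
    refine mul_le_of_le_one_left p0 ?_
    rw [Real.exp_le_one_iff]
    have : 0 ≤ dist x z ^ 2 / (16 * A * s) := by positivity
    linarith
  refine hz.trans ?_
  calc 6 * (N + 1) * Real.exp |K| / s * (cK n A Γ C₀ * Real.exp (32 * A * dist x o)) *
        (Real.exp (-(dist x z ^ 2 / (16 * A * s))) * p s' x' z)
      ≤ 6 * (N + 1) * Real.exp |K| / s * (cK n A Γ C₀ * Real.exp (32 * A * dist x o)) *
        p s' x' z := by gcongr
    _ = _ := by unfold cL; ring

/-- (KG) without the Gaussian factor -/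
theorem ph_grad_le {κ : ℝ} (hB : (sob m).BEi κ)
    {Γ C₀ s s' : ℝ} {x x' : M} (hs : 0 < s)
    (h1 : 512 * A ^ 2 * s ≤ s') (h2 : s' ≤ Γ * s) (h3 : s' ≤ 1 / 2) (hx : dist x x' ≤ C₀ * √s) :
    ∀ᵐ z ∂m, √((sob m).Γ (ph m p s x) (ph m p s x) z) ≤
      (cD n κ A Γ C₀ / √s * Real.exp (32 * A * dist x o)) * p s' x' z := by
  have hA0 := hk.pos
  obtain ⟨hs', hΓ, hc⟩ := ker_time hk (n := n) (C₀ := C₀) hs h1 h2
  filter_upwards [ph_grad hC hp hk hB hs h1 h2 h3 hx] with z hz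
  have p0 := hp.nonneg s' hs' x' z
  have e : Real.exp (-(dist x z ^ 2 / (16 * A * s))) * p s' x' z ≤ p s' x' z := by
    refine mul_le_of_le_one_left p0 ?_
    rw [Real.exp_le_one_iff]
    have : 0 ≤ dist x z ^ 2 / (16 * A * s) := by positivity
    linarith
  refine hz.trans ?_
  calc Real.exp |κ| / √s * (cK n A Γ C₀ * Real.exp (32 * A * dist x o)) *
        (Real.exp (-(dist x z ^ 2 / (16 * A * s))) * p s' x' z)
      ≤ Real.exp |κ| / √s * (cK n A Γ C₀ * Real.exp (32 * A * dist x o)) *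
        p s' x' z := by gcongr
    _ = _ := by unfold cD; ring

/-- (K3), first form: `|ΔP_s F(x)| ≤ (C/s) P_{s'}|F|(x')` -/
theorem I_lap_ph_le [SigmaFinite m] {K N : ℝ} (hN : 0 < N) (hB : (sob m).BE K N)
    {Γ C₀ s s' : ℝ} {x x' : M} (hs : 0 < s)
    (h1 : 512 * A ^ 2 * s ≤ s') (h2 : s' ≤ Γ * s) (h3 : s' ≤ 1 / 2) (hx : dist x x' ≤ C₀ * √s)
    {F : M →ₘ[m] ℝ} (hi : Integrable (fun z => p s' x' z * F z) m) :
    MemLp ((sob m).lap (ph m p s x) * F : M →ₘ[m] ℝ) 1 m ∧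
    |I ((sob m).lap (ph m p s x) * F)| ≤
      (cL n N K A Γ C₀ / s * Real.exp (32 * A * dist x o)) * pt m p s' (fun z => |F z|) x' := by
  obtain ⟨hs', hΓ, hc⟩ := ker_time hk (n := n) (C₀ := C₀) hs h1 h2
  have h := I_mul_le_of_ker hp hs' (ph_lap_le hC hp hk hN hB hs h1 h2 h3 hx) hi
  exact ⟨h.1, h.2.2⟩

/-- bound of `∫ G Γ(p_s(x,·),F)` -/
theorem I_mul_Γ_ph_le {κ : ℝ} (hB : (sob m).BEi κ)
    {Γ C₀ s s' : ℝ} {x x' : M} (hs : 0 < s)
    (h1 : 512 * A ^ 2 * s ≤ s') (h2 : s' ≤ Γ * s) (h3 : s' ≤ 1 / 2) (hx : dist x x' ≤ C₀ * √s)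
    {F G : M →ₘ[m] ℝ} (hF : F ∈ (sob m).W)
    (hi : Integrable (fun z => p s' x' z * (|G z| * √((sob m).Γ F F z))) m) :
    MemLp (G * (sob m).Γ (ph m p s x) F : M →ₘ[m] ℝ) 1 m ∧
    |I (G * (sob m).Γ (ph m p s x) F)| ≤
      (cD n κ A Γ C₀ / √s * Real.exp (32 * A * dist x o)) *
        pt m p s' (fun z => |G z| * √((sob m).Γ F F z)) x' := by
  obtain ⟨hs', hΓ, hc⟩ := ker_time hk (n := n) (C₀ := C₀) hs h1 h2
  set c := cD n κ A Γ C₀ / √s * Real.exp (32 * A * dist x o) with hcd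
  have hb : ∀ᵐ z ∂m, ‖(G * (sob m).Γ (ph m p s x) F : M →ₘ[m] ℝ) z‖ ≤
      c * (p s' x' z * (|G z| * √((sob m).Γ F F z))) := by
    filter_upwards [ph_grad_le hC hp hk hB hs h1 h2 h3 hx, mul_ae G ((sob m).Γ (ph m p s x) F),
      hC.toIsDir.Γ_abs_ae (ph_mem hC.toIsDir hp hs x) hF] with z a1 a2 a3
    rw [a2, Real.norm_eq_abs, abs_mul]
    calc |G z| * |(sob m).Γ (ph m p s x) F z|
        ≤ |G z| * (√((sob m).Γ (ph m p s x) (ph m p s x) z) * √((sob m).Γ F F z)) := by gcongr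
      _ ≤ |G z| * ((c * p s' x' z) * √((sob m).Γ F F z)) := by gcongr
      _ = _ := by ring
  have hint : Integrable (G * (sob m).Γ (ph m p s x) F : M →ₘ[m] ℝ) m :=
    (hi.const_mul c).mono' (AEEqFun.aestronglyMeasurable _) hb
  refine ⟨memLp_one_iff_integrable.2 hint, ?_⟩
  unfold I pt
  refine (abs_integral_le_integral_abs).trans ?_
  rw [← integral_const_mul]
  refine integral_mono_ae hint.abs (hi.const_mul c) ?_
  filter_upwards [hb] with z hz
  simpa using hz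

/-- `|∫ Γ(p_s(x,·),F)| ≤ (C/√s) P_{s'}|∇F|(x')` -/
theorem I_Γ_ph_le {κ : ℝ} (hB : (sob m).BEi κ)
    {Γ C₀ s s' : ℝ} {x x' : M} (hs : 0 < s)
    (h1 : 512 * A ^ 2 * s ≤ s') (h2 : s' ≤ Γ * s) (h3 : s' ≤ 1 / 2) (hx : dist x x' ≤ C₀ * √s)
    {F : M →ₘ[m] ℝ} (hF : F ∈ (sob m).W) :
    |I ((sob m).Γ (ph m p s x) F)| ≤
      (cD n κ A Γ C₀ / √s * Real.exp (32 * A * dist x o)) *
        pt m p s' (fun z => √((sob m).Γ F F z)) x' := by
  obtain ⟨hs', hΓ, hc⟩ := ker_time hk (n := n) (C₀ := C₀) hs h1 h2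
  have hD := hC.toIsDir
  have e1 : (fun z => |(1 : M →ₘ[m] ℝ) z| * √((sob m).Γ F F z)) =ᵐ[m]
      fun z => √((sob m).Γ F F z) := by
    filter_upwards [one_ae (M := M) (m := m)] with z hz
    rw [hz, abs_one, one_mul]
  have mr := rt_mem2 (hD.nonneg _ hF) (hD.mem1 _ hF)
  have hi0 : Integrable (fun z => p s' x' z * √((sob m).Γ F F z)) m := by
    refine (pt_int hp hs' x' mr).congr ?_
    filter_upwards [rt_ae ((sob m).Γ F F)] with z hz
    rw [hz]
  have h := (I_mul_Γ_ph_le hC hp hk hB hs h1 h2 h3 hx hF (G := 1) (by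
    refine hi0.congr ?_
    filter_upwards [e1] with z hz
    rw [hz])).2
  rwa [one_mul, pt_congr hp e1] at h

/-- (K3), second form: `|ΔP_s F(x)| ≤ (C/√s) P_{s'}|∇F|(x')` -/
theorem I_lap_ph_le_grad {κ : ℝ} (hB : (sob m).BEi κ)
    {Γ C₀ s s' : ℝ} {x x' : M} (hs : 0 < s)
    (h1 : 512 * A ^ 2 * s ≤ s') (h2 : s' ≤ Γ * s) (h3 : s' ≤ 1 / 2) (hx : dist x x' ≤ C₀ * √s)
    {F : M →ₘ[m] ℝ} (hF : F ∈ (sob m).W) :
    |I ((sob m).lap (ph m p s x) * F)| ≤
      (cD n κ A Γ C₀ / √s * Real.exp (32 * A * dist x o)) *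
        pt m p s' (fun z => √((sob m).Γ F F z)) x' := by
  have h := I_Γ_ph_le hC hp hk hB hs h1 h2 h3 hx hF
  rwa [I_Γ_ph hC.toIsDir hp hs x hF, abs_neg] at h

/-! ### almost everywhere forms -/

omit hk in
/-- `ΔP_s F (z) = ∫ Δp_s(z,·) F` -/
theorem lap_P_ae {s : ℝ} (hs : 0 < s) {F : M →ₘ[m] ℝ} (hF : MemLp F 2 m) :
    ∀ᵐ z ∂m, (sob m).lap ((sob m).P s F) z = I ((sob m).lap (ph m p s z) * F) := by
  have hD := hC.toIsDir
  have h2 : 0 < s / 2 := by linarith
  have e := hD.P_lap_add h2.le h2 hF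
  rw [add_halves] at e
  rw [e]
  have hL := hD.P_isLap h2 hF
  filter_upwards [hp.rep (s / 2) h2 _ hL.2.1] with z hz
  rw [hz, ← I_ph_mul hp h2, I_ph_lap hD hp h2 z hL, I_lap_ph_P hD hp h2.le h2 z hF, add_halves]

/-- (K3), first form, almost everywhere -/
theorem lap_P_le [SigmaFinite m] {K N : ℝ} (hN : 0 < N) (hB : (sob m).BE K N)
    {Γ s s' : ℝ} (hs : 0 < s)
    (h1 : 512 * A ^ 2 * s ≤ s') (h2 : s' ≤ Γ * s) (h3 : s' ≤ 1 / 2)
    {F : M →ₘ[m] ℝ} (hF : MemLp F 2 m) :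
    ∀ᵐ z ∂m, |(sob m).lap ((sob m).P s F) z| ≤
      (cL n N K A Γ 0 / s * Real.exp (32 * A * dist z o)) * pt m p s' (fun w => |F w|) z := by
  obtain ⟨hs', hΓ, hc⟩ := ker_time hk (n := n) (C₀ := 0) hs h1 h2
  filter_upwards [lap_P_ae hC hp hs hF] with z hz
  rw [hz]
  exact (I_lap_ph_le hC hp hk hN hB hs h1 h2 h3 (by rw [dist_self, zero_mul])
    (pt_int hp hs' z hF)).2

/-- (K3), second form, almost everywhere -/
theorem lap_P_le_grad {κ : ℝ} (hB : (sob m).BEi κ)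
    {Γ s s' : ℝ} (hs : 0 < s)
    (h1 : 512 * A ^ 2 * s ≤ s') (h2 : s' ≤ Γ * s) (h3 : s' ≤ 1 / 2)
    {F : M →ₘ[m] ℝ} (hF : F ∈ (sob m).W) :
    ∀ᵐ z ∂m, |(sob m).lap ((sob m).P s F) z| ≤
      (cD n κ A Γ 0 / √s * Real.exp (32 * A * dist z o)) *
        pt m p s' (fun w => √((sob m).Γ F F w)) z := by
  obtain ⟨hs', hΓ, hc⟩ := ker_time hk (n := n) (C₀ := 0) hs h1 h2
  filter_upwards [lap_P_ae hC hp hs (hC.memLp _ hF)] with z hz
  rw [hz]
  exact I_lap_ph_le_grad hC hp hk hB hs h1 h2 h3 (by rw [dist_self, zero_mul]) hF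

/-- (K1a): `|∇P_s F| ≤ (C/√s) P_{s'}|F|` -/
theorem grad_P_le [BorelSpace M] [SecondCountableTopology M]
    (hfin : ∀ (x : M) (r : ℝ), m (Metric.ball x r) < ∞)
    {Γ s s' : ℝ} (hs : 0 < s)
    (h1 : 4 * A ^ 2 * s ≤ s') (h2 : s' ≤ Γ * s) (h3 : s' ≤ 1 / 2)
    {F : M →ₘ[m] ℝ} (hF : MemLp F 2 m) :
    ∀ᵐ z ∂m, √((sob m).Γ ((sob m).P s F) ((sob m).P s F) z) ≤
      (cG n A Γ 0 / √s * Real.exp (2 * A * dist z o)) * pt m p s' (fun w => |F w|) z := by
  have hA := hk.one_le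
  have hA0 := hk.pos
  have q0 : 0 < √s := Real.sqrt_pos.2 hs
  have hs' : 0 < s' := lt_of_lt_of_le (by positivity) h1
  have hΓ : 0 < Γ := by
    by_contra hc
    rw [not_lt] at hc
    nlinarith
  have hi : ∀ y, Integrable (fun z => p s' y z * F z) m := fun y => pt_int hp hs' y hF
  have hL := pt_lipOnBalls hp hk hs h1 h3 hF.1 hi
  have hc0 : 0 < cG n A Γ 0 := cG_pos hA hΓ
  have hJ : ∀ x, 0 ≤ pt m p s' (fun w => |F w|) x := fun x =>
    pt_nonneg hp hs' x (Eventually.of_forall fun z => abs_nonneg _)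
  have h := Γ_le_of_bound hfin hC.toIsDir (hC.toIsDir.P_mem hs hF) (hp.rep s hs F hF) hL
    (c := fun x => (cG n A Γ 0 / √s * Real.exp (2 * A * dist x o)) *
      pt m p s' (fun w => |F w|) x)
    (fun x => mul_nonneg (by positivity) (hJ x)) (fun x => by
      have hb : Metric.ball x (√s) ∈ 𝓝 x := Metric.ball_mem_nhds x q0
      filter_upwards [hb] with y hy
      have hy' : dist x y ≤ √s := by rw [dist_comm]; exact le_of_lt hy
      have h := pt_lip hp hk (x := x) (x' := y) (y := x) (C₀ := 0) hs h1 h2 h3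
        (by rw [dist_self, zero_mul]) hy' hF.1 (hi x)
      rw [abs_sub_comm]
      refine h.trans (le_of_eq ?_)
      rw [dist_comm y x]
      ring)
  filter_upwards [h] with z hz
  rw [Real.sqrt_le_iff]
  exact ⟨mul_nonneg (by positivity) (hJ z), hz⟩

end fun_bounds

/-! ### Poincaré inequality at two points and two times -/

section poinc

variable [BorelSpace M] [m.IsOpenPosMeasure] [SigmaFinite m]
  (hfin : ∀ (x : M) (r : ℝ), m (Metric.ball x r) < ∞)
  (hC : IsGamma (sob m)) {κ : ℝ} (hB : (sob m).BEi κ) (hp : Ker0 m p) (hk : KB n o A p)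
  {f : M →ₘ[m] ℝ}
include hfin hC hB hp hk

/-- oscillation around the mean at a later time -/
theorem poinc_early {Γ C₀ s s' : ℝ} {x y : M} (hs : 0 < s)
    (h1 : 4 * A ^ 2 * s ≤ s') (h2 : s' ≤ Γ * s) (h3 : s' ≤ 1 / 2) (hx : dist x y ≤ C₀ * √s)
    (hf : f ∈ (sob m).W) :
    pt m p s (fun z => |f z - pt m p s' f y|) x ≤
      cG n A Γ C₀ * Real.exp (2 * A * dist x o) *
        (2 * Real.exp (2 * |κ| * s') * √(2 * s') * pt m p s' (fun z => √((sob m).Γ f f z)) y) := by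
  have hA := hk.one_le
  have hA0 := hk.pos
  have hs' : 0 < s' := lt_of_lt_of_le (by positivity) h1
  have hΓ : 0 < Γ := by
    by_contra hc
    rw [not_lt] at hc
    nlinarith
  have hf2 := hC.memLp _ hf
  have hm : AEStronglyMeasurable (fun z => f z - pt m p s' f y) m :=
    hf2.1.sub aestronglyMeasurable_const
  have hi : Integrable (fun z => p s' y z * (f z - pt m p s' f y)) m := by
    have := (pt_int hp hs' y hf2).sub ((hp.int s' hs' y).mul_const (pt m p s' f y))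
    refine this.congr (Eventually.of_forall fun z => ?_)
    simp only [Pi.sub_apply]
    ring
  refine (pt_harnack hp hk hs h1 h2 h3 hx hm hi).trans ?_
  have h := poinc hfin hC hB hp hs' hf y
  have hc := cG_pos (n := n) (C₀ := C₀) hA hΓ
  gcongr

/-- **two point, two time Poincaré inequality** -/
theorem poinc_two {Γ C₀ s σ s' : ℝ} {x x' y : M} (hs : 0 < s) (hσ : 0 < σ)
    (h1 : 4 * A ^ 2 * s ≤ s') (h1' : 4 * A ^ 2 * σ ≤ s') (h2 : s' ≤ Γ * s) (h2' : s' ≤ Γ * σ)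
    (h3 : s' ≤ 1 / 2) (hx : dist x y ≤ C₀ * √s) (hx' : dist x' y ≤ C₀ * √σ)
    (hf : f ∈ (sob m).W) :
    pt m p s (fun z => |f z - pt m p σ f x'|) x ≤
      cG n A Γ C₀ * (Real.exp (2 * A * dist x o) + Real.exp (2 * A * dist x' o)) *
        (2 * Real.exp (2 * |κ| * s') * √(2 * s') * pt m p s' (fun z => √((sob m).Γ f f z)) y) := by
  have hA := hk.one_le
  have hA0 := hk.pos
  have hs' : 0 < s' := lt_of_lt_of_le (by positivity) h1
  have hf2 := hC.memLp _ hf
  have a1 := poinc_early hfin hC hB hp hk hs h1 h2 h3 hx hf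
  have a2 := poinc_early hfin hC hB hp hk hσ h1' h2' h3 hx' hf
  set c := pt m p s' f y with hc
  set c' := pt m p σ f x' with hc'
  have hi : ∀ (r : ℝ) (hr : 0 < r) (w : M) (b : ℝ), Integrable (fun z => p r w z * |f z - b|) m := by
    intro r hr w b
    refine pt_int_abs hp hr ?_
    have := (pt_int hp hr w hf2).sub ((hp.int r hr w).mul_const b)
    refine this.congr (Eventually.of_forall fun z => ?_)
    simp only [Pi.sub_apply]
    ring
  have b1 : |c' - c| ≤ pt m p σ (fun z => |f z - c|) x' := by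
    have e : c' - c = pt m p σ (fun z => f z - c) x' := by
      have h0 : pt m p σ (fun z => f z - c) x' = pt m p σ f x' - pt m p σ (fun _ => c) x' := by
        unfold pt
        rw [← integral_sub (pt_int hp hσ x' hf2) ((hp.int σ hσ x').mul_const c)]
        refine integral_congr_ae (Eventually.of_forall fun z => ?_)
        simp only
        ring
      rw [h0, pt_const hp hσ]
    rw [e]
    exact abs_pt_le hp hσ x' _
  have b2 : pt m p s (fun z => |f z - c'|) x ≤ pt m p s (fun z => |f z - c|) x + |c' - c| := by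
    have h0 : pt m p s (fun z => |f z - c| + |c' - c|) x =
        pt m p s (fun z => |f z - c|) x + |c' - c| := by
      have e1 : pt m p s (fun z => |f z - c| + |c' - c|) x =
          pt m p s (fun z => |f z - c|) x + pt m p s (fun _ => |c' - c|) x := by
        unfold pt
        rw [← integral_add (hi s hs x c) ((hp.int s hs x).mul_const _)]
        refine integral_congr_ae (Eventually.of_forall fun z => ?_)
        simp only
        ring
      rw [e1, pt_const hp hs]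
    rw [← h0]
    refine pt_mono hp hs x (hi s hs x c') ?_ (Eventually.of_forall fun z => ?_)
    · have := (hi s hs x c).add ((hp.int s hs x).mul_const |c' - c|)
      refine this.congr (Eventually.of_forall fun z => ?_)
      simp only [Pi.add_apply]
      ring
    · have := abs_add_le (f z - c) (c - c')
      rw [abs_sub_comm c' c]
      have e : f z - c + (c - c') = f z - c' := by ring
      rwa [e] at this
  calc pt m p s (fun z => |f z - c'|) x ≤ pt m p s (fun z => |f z - c|) x + |c' - c| := b2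
    _ ≤ pt m p s (fun z => |f z - c|) x + pt m p σ (fun z => |f z - c|) x' := by linarith
    _ ≤ _ := by
      refine (add_le_add a1 a2).trans (le_of_eq ?_)
      ring

/-- Lipschitz bound by the gradient: `|P_s f(x) - P_s f(x')| ≤ C d(x,x') P_{s''}|∇f|(y)` -/
theorem pt_lip_grad {Γ C₀ s s₁ s' : ℝ} {x x' y : M} (hs : 0 < s)
    (h1 : 4 * A ^ 2 * s ≤ s') (h2 : s' ≤ Γ * s) (h3 : s' ≤ 1 / 2)
    (hx : dist x y ≤ C₀ * √s) (hxx : dist x x' ≤ √s) (hf : f ∈ (sob m).W) :
    |pt m p s f x - pt m p s f x'| ≤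
      cG n A Γ C₀ * Real.exp (2 * A * dist x o) * (dist x x' / √s) *
        (2 * Real.exp (2 * |κ| * s') * √(2 * s') * pt m p s' (fun z => √((sob m).Γ f f z)) y) := by
  have hA := hk.one_le
  have hA0 := hk.pos
  have q0 : 0 < √s := Real.sqrt_pos.2 hs
  have hs' : 0 < s' := lt_of_lt_of_le (by positivity) h1
  have hΓ : 0 < Γ := by
    by_contra hc
    rw [not_lt] at hc
    nlinarith
  have hf2 := hC.memLp _ hf
  set c := pt m p s' f y with hc
  have hm : AEStronglyMeasurable (fun z => f z - c) m := hf2.1.sub aestronglyMeasurable_const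
  have hi : Integrable (fun z => p s' y z * (f z - c)) m := by
    have := (pt_int hp hs' y hf2).sub ((hp.int s' hs' y).mul_const c)
    refine this.congr (Eventually.of_forall fun z => ?_)
    simp only [Pi.sub_apply]
    ring
  have e : ∀ w, pt m p s (fun z => f z - c) w = pt m p s f w - c := by
    intro w
    have h0 : pt m p s (fun z => f z - c) w = pt m p s f w - pt m p s (fun _ => c) w := by
      unfold pt
      rw [← integral_sub (pt_int hp hs w hf2) ((hp.int s hs w).mul_const c)]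
      refine integral_congr_ae (Eventually.of_forall fun z => ?_)
      simp only
      ring
    rw [h0, pt_const hp hs]
  have h := pt_lip hp hk hs h1 h2 h3 hx hxx hm hi
  rw [e x, e x', sub_sub_sub_cancel_right] at h
  refine h.trans ?_
  have h' := poinc hfin hC hB hp hs' hf y
  have hcc := cG_pos (n := n) (C₀ := C₀) hA hΓ
  gcongr

end poinc

end Vale.Agent.P242.H990
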